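import Vale.Agent.P268.Disc

namespace Vale.Agent.P268

open Metric Set Filter Topology Complex

theorem not_ev_zero {R r : ℝ} (hr : 0 < r) (hrR : r < R) {F : ℂ → ℂ}
    (hF : AnalyticOnNhd ℂ F (ball 0 R)) (hz : ∀ x ∈ ball (0 : ℂ) R, F x = 0 → ‖x‖ < r) {z : ℂ}
    (hzR : z ∈ ball (0 : ℂ) R) : ¬ ∀ᶠ x in 𝓝 z, F x = 0 := by
  intro h
  have hrm : (r : ℂ) ∈ ball (0 : ℂ) R := by simpa [abs_of_pos hr] using hrR
  have := hz r hrm (hF.eqOn_zero_of_preconnected_of_eventuallyEq_zero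
    (convex_ball _ _).isPreconnected hzR h hrm)
  simp [abs_of_pos hr] at this

theorem disc_count {R r : ℝ} (hr : 0 < r) (hrR : r < R) {F : ℂ → ℂ}
    (hF : AnalyticOnNhd ℂ F (ball 0 R)) (hz : ∀ x ∈ ball (0 : ℂ) R, F x = 0 → ‖x‖ < r) {m : ℤ}
    (hm : HL (fun x => F x / x ^ m) (sphere 0 r)) :
    ∃ Z : Finset ℂ, (∀ x, x ∈ Z ↔ x ∈ ball (0 : ℂ) R ∧ F x = 0) ∧ ∃ e : ℂ → ℤ,
      (∀ z ∈ Z, 1 ≤ e z ∧ ∃ δ > 0, HL (fun x => F x / (x - z) ^ e z) (ball z δ \ {z})) ∧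
      ∑ z ∈ Z, e z = m := by
  classical
  have hrm : (r : ℂ) ∈ ball (0 : ℂ) R := by simpa [abs_of_pos hr] using hrR
  have hr0 : F r ≠ 0 := fun h => by simpa [abs_of_pos hr] using hz r hrm h
  have hfin := (isCompact_closedBall (0 : ℂ) r).finite_sdiff_of_mem_codiscreteWithin
    ((hF.mono (closedBall_subset_ball hrR)).preimage_zero_mem_codiscreteWithin hr0
      (by simp [abs_of_pos hr]) ((convex_closedBall _ _).isConnected ⟨0, by simp [hr.le]⟩))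
  have hZ : ∀ x, x ∈ hfin.toFinset ↔ x ∈ ball (0 : ℂ) R ∧ F x = 0 := by
    intro x
    rw [Set.Finite.mem_toFinset]
    constructor
    · rintro ⟨h1, h2⟩
      exact ⟨closedBall_subset_ball hrR h1, by simpa using h2⟩
    · rintro ⟨h1, h2⟩
      exact ⟨mem_closedBall_zero_iff.mpr (hz x h1 h2).le, by simpa using h2⟩
  have hl : ∀ z, ∃ e : ℤ, z ∈ hfin.toFinset →
      1 ≤ e ∧ ∃ δ > 0, HL (fun x => F x / (x - z) ^ e) (ball z δ \ {z}) := by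
    intro z
    by_cases hzZ : z ∈ hfin.toFinset
    · obtain ⟨h1, h2⟩ := (hZ z).mp hzZ
      obtain ⟨e, he⟩ := analytic_local (hF z h1) h2 (not_ev_zero hr hrR hF hz h1)
      exact ⟨e, fun _ => he⟩
    · exact ⟨0, fun h => absurd h hzZ⟩
  choose e he using hl
  refine ⟨_, hZ, e, he, wind_unique hr ?_ hm⟩
  exact wind_sum hr hrR _ (fun z hzZ => hz z ((hZ z).mp hzZ).1 ((hZ z).mp hzZ).2)
    (hF.continuousOn.mono sdiff_subset) (fun x hx h => hx.2 ((hZ x).mpr ⟨hx.1, h⟩)) e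
    fun z hzZ => (he z hzZ).2

theorem disc_card {R r : ℝ} (hr : 0 < r) (hrR : r < R) {F : ℂ → ℂ}
    (hF : AnalyticOnNhd ℂ F (ball 0 R)) (hz : ∀ x ∈ ball (0 : ℂ) R, F x = 0 → ‖x‖ < r) {m : ℤ}
    (hm : HL (fun x => F x / x ^ m) (sphere 0 r)) (T : Finset ℂ)
    (hT : ∀ x ∈ T, x ∈ ball (0 : ℂ) R ∧ F x = 0) : (T.card : ℤ) ≤ m := by
  obtain ⟨Z, hZ, e, he, hs⟩ := disc_count hr hrR hF hz hm
  have h1 : T.card ≤ Z.card := Finset.card_le_card fun x hx => (hZ x).mpr (hT x hx)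
  have h2 : (Z.card : ℤ) ≤ ∑ z ∈ Z, e z := by
    rw [Finset.card_eq_sum_ones]
    push_cast
    exact Finset.sum_le_sum fun z hz => (he z hz).1
  omega

theorem disc_sign {R r : ℝ} (hr : 0 < r) (hrR : r < R) {F H : ℂ → ℂ}
    (hF : AnalyticOnNhd ℂ F (ball 0 R)) (hz : ∀ x ∈ ball (0 : ℂ) R, F x = 0 → ‖x‖ < r) {m k : ℤ}
    (hm : HL (fun x => F x / x ^ m) (sphere 0 r)) (hH : ContinuousOn H (ball 0 R))
    (hH0 : ∀ x ∈ ball (0 : ℂ) R, H x = 0 → F x = 0)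
    (hk : HL (fun x => H x / x ^ k) (sphere 0 r))
    (hσ : ∀ z ∈ ball (0 : ℂ) R, F z = 0 → ∃ W ∈ 𝓝 z, ∃ σ : ℤ, (σ = 1 ∨ σ = -1) ∧
      HL (fun x => H x / F x ^ σ) (W \ {x | F x = 0})) : |k| ≤ m ∧ 2 ∣ m - k := by
  obtain ⟨Z, hZ, e, he, hs⟩ := disc_count hr hrR hF hz hm
  have hl : ∀ z, ∃ σ : ℤ, z ∈ Z → (σ = 1 ∨ σ = -1) ∧
      ∃ δ > 0, HL (fun x => H x / (x - z) ^ (e z * σ)) (ball z δ \ {z}) := by
    intro z
    by_cases hzZ : z ∈ Z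
    · obtain ⟨W, hW, σ, hσ1, h1⟩ := hσ z ((hZ z).mp hzZ).1 ((hZ z).mp hzZ).2
      obtain ⟨-, δ, hδ, h2⟩ := he z hzZ
      obtain ⟨δ', hδ', hs'⟩ := Metric.mem_nhds_iff.mp (inter_mem hW (ball_mem_nhds z hδ))
      have hF0 : ∀ x ∈ ball z δ' \ {z}, F x ≠ 0 := fun x hx h =>
        h2.ne (x := x) ⟨(hs' hx.1).2, hx.2⟩ (by rw [h, zero_div])
      refine ⟨σ, fun _ => ⟨hσ1, δ', hδ', ?_⟩⟩
      refine ((h1.mono (t := ball z δ' \ {z}) fun x hx => ⟨(hs' hx.1).1, hF0 x hx⟩).mul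
        ((h2.mono (t := ball z δ' \ {z}) fun x hx => ⟨(hs' hx.1).2, hx.2⟩).zpow σ)).congr'
        fun x hx => ?_
      have := zpow_ne_zero σ (hF0 x hx)
      rw [div_zpow, ← zpow_mul]
      field_simp
    · exact ⟨0, fun h => absurd h hzZ⟩
  choose σ hσ' using hl
  have hk' : ∑ z ∈ Z, e z * σ z = k := wind_unique hr (wind_sum hr hrR Z
    (fun z hzZ => hz z ((hZ z).mp hzZ).1 ((hZ z).mp hzZ).2) (hH.mono sdiff_subset)
    (fun x hx h => hx.2 ((hZ x).mpr ⟨hx.1, hH0 x hx.1 h⟩)) _ fun z hzZ => (hσ' z hzZ).2) hk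
  rw [← hk', ← hs]
  refine ⟨(Finset.abs_sum_le_sum_abs _ _).trans (Finset.sum_le_sum fun z hz => ?_), ?_⟩
  · have := (he z hz).1
    rcases (hσ' z hz).1 with h | h <;> rw [h] <;> simp [abs_of_pos (show 0 < e z by omega)]
  · rw [← Finset.sum_sub_distrib]
    refine Finset.dvd_sum fun z hz => ?_
    rcases (hσ' z hz).1 with h | h <;> rw [h] <;> omega

end Vale.Agent.P268
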