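import Vale.Agent.P268.Main

namespace Vale.Agent.P268

open Metric Set Filter Topology Complex

variable {E : Type*} [NormedAddCommGroup E] [NormedSpace ℂ E]

/-- The common part of the criteria: the image of the punctured line germ factors through a map
`G` from a punctured disc times a convex set, along which `g` has winding number `e`. -/
theorem crit [CompleteSpace E] (φ : OpenPartialHomeomorph E E) {f g : E → ℂ}
    (h0 : (0 : E) ∈ φ.source) (hf : AnalyticOnNhd ℂ f φ.source)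
    (hg : AnalyticOnNhd ℂ g φ.target) (hf0 : f 0 = 0)
    (hV : ∀ x ∈ φ.source, f x = 0 ↔ g (φ x) = 0)
    (sf : GenSmooth f φ.source) (sg : GenSmooth g φ.target) {m : ℕ}
    (hm : ∀ k < m, iteratedFDeriv ℂ k f 0 = 0) {v : E} (hv : OffCone f m v)
    {O : Set E} (hO : Convex ℝ O) (hOo : IsOpen O) {ρ : ℝ} (hρ : 0 < ρ) {G : ℂ × E → E}
    (hGc : ContinuousOn G ((ball 0 ρ \ {0}) ×ˢ O))
    (hin : ∀ y ∈ (ball (0 : ℂ) ρ \ {0}) ×ˢ O, G y ∈ φ.target) {e : ℤ}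
    (hgl : HL (fun y : ℂ × E => g (G y) / y.1 ^ e) ((ball 0 ρ \ {0}) ×ˢ O))
    {a : ℂ → ℂ} {x : ℂ → E} (hev : ∀ᶠ z in 𝓝[≠] (0 : ℂ), ContinuousAt a z ∧ ContinuousAt x z ∧
      (a z, x z) ∈ (ball (0 : ℂ) ρ \ {0}) ×ˢ O ∧ G (a z, x z) = φ (z • v)) :
    ∃ j : ℤ, j ≠ 0 ∧ |j * e| ≤ m := by
  obtain ⟨hm0, -⟩ := ne_zero_of_offCone hf0 hv
  obtain ⟨ρf, hρf, hinf, hfl⟩ := expand φ.open_source h0 hf hm hv
  have hgne : ∀ y ∈ (ball (0 : ℂ) ρ \ {0}) ×ˢ O, g (G y) ≠ 0 := fun y hy h =>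
    hgl.ne hy (by simp only [h, zero_div])
  obtain ⟨i, hi⟩ := exists_wind hO hOo hρ (F := fun y => f (φ.symm (G y)))
    (hf.continuousOn.comp (φ.continuousOn_symm.comp hGc hin) fun y hy => φ.map_target (hin y hy))
    fun y hy h => hgne y hy (by
      have := (hV _ (φ.map_target (hin y hy))).mp h
      rwa [φ.right_inv (hin y hy)] at this)
  obtain ⟨R1, hR1, hs⟩ := Metric.mem_nhds_iff.mp
    ((eventually_nhdsWithin_iff.mp hev).and (ball_mem_nhds (0 : ℂ) hρf))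
  have hsrc : ∀ z ∈ ball (0 : ℂ) R1, z • v ∈ φ.source := fun z hz =>
    hinf z (hs hz).2 v (mem_ball_self hρf)
  have hac : ContinuousOn a (ball 0 R1 \ {0}) := fun z hz =>
    ((hs hz.1).1 hz.2).1.continuousWithinAt
  have huc : ContinuousOn (fun z : ℂ => (a z, x z)) (ball 0 R1 \ {0}) :=
    hac.prodMk fun z hz => ((hs hz.1).1 hz.2).2.1.continuousWithinAt
  have hum : MapsTo (fun z : ℂ => (a z, x z)) (ball 0 R1 \ {0}) ((ball (0 : ℂ) ρ \ {0}) ×ˢ O) :=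
    fun z hz => ((hs hz.1).1 hz.2).2.2.1
  have hcan : ∀ z ∈ ball (0 : ℂ) R1 \ {0}, G (a z, x z) = φ (z • v) := fun z hz =>
    ((hs hz.1).1 hz.2).2.2.2
  have ha0 : ∀ z ∈ ball (0 : ℂ) R1 \ {0}, a z ≠ 0 := fun z hz => (hum hz).1.2
  obtain ⟨j, hj⟩ := exists_wind (Q := ℝ) convex_univ isOpen_univ hR1
    (F := fun y => a y.1) (hac.comp continuousOn_fst fun y hy => hy.1) fun y hy => ha0 _ hy.1
  have hj' : HL (fun z : ℂ => a z / z ^ j) (ball 0 R1 \ {0}) :=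
    hj.comp (u := fun z : ℂ => (z, (0 : ℝ))) (by fun_prop) fun z hz => ⟨hz, mem_univ _⟩
  have A1 : HL (fun z : ℂ => f (z • v) / z ^ (j * i)) (ball 0 R1 \ {0}) := by
    refine ((hi.comp huc hum).mul (hj'.zpow i)).congr' fun z hz => ?_
    have := zpow_ne_zero i (ha0 z hz)
    simp only [hcan z hz, φ.left_inv (hsrc z hz.1)]
    rw [div_zpow, ← zpow_mul]
    field_simp
  have A2 : HL (fun z : ℂ => g (φ (z • v)) / z ^ (j * e)) (ball 0 R1 \ {0}) := by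
    refine ((hgl.comp huc hum).mul (hj'.zpow e)).congr' fun z hz => ?_
    have := zpow_ne_zero e (ha0 z hz)
    simp only [hcan z hz]
    rw [div_zpow, ← zpow_mul]
    field_simp
  have A3 : HL (fun z : ℂ => f (z • v) / z ^ (m : ℤ)) (ball 0 R1 \ {0}) :=
    hfl.comp (u := fun z : ℂ => (z, v)) (by fun_prop)
      fun z hz => ⟨⟨(hs hz.1).2, hz.2⟩, mem_ball_self hρf⟩
  have hsph : sphere (0 : ℂ) (R1 / 4) ⊆ ball 0 R1 \ {0} := fun z hz =>
    ⟨sphere_subset_ball (by linarith) hz, ne_of_mem_sphere hz (by positivity)⟩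
  have hmi : j * i = m := wind_unique (by positivity) (A1.mono hsph) (A3.mono hsph)
  refine ⟨j, ?_, (core φ hf hg hV sf sg hR1 hsrc A2 A3).1⟩
  rintro rfl
  rw [zero_mul] at hmi
  exact hm0 (by exact_mod_cast hmi.symm)

theorem le_of_abs {j e : ℤ} {m n : ℕ} (hj : j ≠ 0) (he : (n : ℤ) ≤ e) (h : |j * e| ≤ m) :
    n ≤ m := by
  have h1 : 1 ≤ |j| := Int.one_le_abs hj
  have h2 : 0 ≤ e := le_trans (by positivity) he
  rw [abs_mul, abs_of_nonneg h2] at h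
  have : (n : ℤ) ≤ m := by nlinarith
  exact_mod_cast this

theorem taylor {g : E → ℂ} (hg : AnalyticAt ℂ g 0) {n : ℕ}
    (h1 : ∀ k < n, iteratedFDeriv ℂ k g 0 = 0) :
    ∃ C : ℝ, ∀ᶠ u : E in 𝓝 0, ‖g u - (n.factorial : ℂ)⁻¹ * iteratedFDeriv ℂ n g 0 (fun _ => u)‖ ≤
      C * ‖u‖ ^ (n + 1) := by
  obtain ⟨p, r0, hp⟩ := hg
  have hfac : ∀ k (u : E), (k.factorial : ℂ) * p k (fun _ => u) =
      iteratedFDeriv ℂ k g 0 (fun _ => u) := fun k u => by
    rw [← hp.factorial_smul u k, nsmul_eq_mul]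
  have hps : ∀ u : E, p.partialSum (n + 1) u =
      (n.factorial : ℂ)⁻¹ * iteratedFDeriv ℂ n g 0 (fun _ => u) := by
    intro u
    rw [FormalMultilinearSeries.partialSum, Finset.sum_range_succ, Finset.sum_eq_zero, zero_add,
      ← hfac, inv_mul_cancel_left₀ (by exact_mod_cast n.factorial_ne_zero)]
    intro k hk
    have := hfac k u
    rw [h1 k (Finset.mem_range.mp hk)] at this
    exact (mul_eq_zero.mp this).resolve_left (by exact_mod_cast k.factorial_ne_zero)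
  obtain ⟨C, hC⟩ := (hp.hasFPowerSeriesAt.isBigO_sub_partialSum_pow (n + 1)).bound
  refine ⟨C, hC.mono fun u hu => ?_⟩
  rwa [zero_add, hps, Real.norm_of_nonneg (by positivity)] at hu

theorem expand_cone {g : E → ℂ} {U : Set E} (hU : IsOpen U) (h0 : (0 : E) ∈ U)
    (hg : AnalyticOnNhd ℂ g U) {n : ℕ} (h1 : ∀ k < n, iteratedFDeriv ℂ k g 0 = 0) {K : Set E}
    (hK : IsCompact K) (hKc : Convex ℝ K) (hw : ∀ x ∈ K, OffCone g n x) :
    ∃ ρ > 0, (∀ y ∈ ball (0 : ℂ) ρ ×ˢ thickening ρ K, y.1 • y.2 ∈ U) ∧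
      HL (fun y : ℂ × E => g (y.1 • y.2) / y.1 ^ (n : ℤ))
        ((ball 0 ρ \ {0}) ×ˢ thickening ρ K) := by
  obtain ⟨C, hC⟩ := taylor (hg 0 h0) h1
  set P : E → ℂ := fun u => (n.factorial : ℂ)⁻¹ * iteratedFDeriv ℂ n g 0 (fun _ => u) with hP
  have hPc : Continuous P :=
    continuous_const.mul ((iteratedFDeriv ℂ n g 0).cont.comp (by fun_prop))
  have hPs : ∀ (a : ℂ) (u : E), P (a • u) = a ^ n * P u := by
    intro a u
    simp only [hP]
    rw [(iteratedFDeriv ℂ n g 0).map_smul_univ (fun _ => a) (fun _ => u)]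
    simp only [Finset.prod_const, Finset.card_univ, Fintype.card_fin, smul_eq_mul]
    ring
  set S : Set (ℂ × E) := {y | (‖g (y.1 • y.2) - P (y.1 • y.2)‖ ≤ C * ‖y.1 • y.2‖ ^ (n + 1) ∧
    y.1 • y.2 ∈ U) ∧ C * (‖y.1‖ * ‖y.2‖ ^ (n + 1)) < ‖P y.2‖} with hS
  have hSn : ∀ y ∈ ({0} : Set ℂ) ×ˢ K, y ∈ interior S := by
    rintro ⟨a, w⟩ ⟨ha, hwK⟩
    obtain rfl : a = 0 := ha
    rw [mem_interior_iff_mem_nhds]
    have hsm : Tendsto (fun y : ℂ × E => y.1 • y.2) (𝓝 (0, w)) (𝓝 0) := by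
      have : Continuous fun y : ℂ × E => y.1 • y.2 := by fun_prop
      simpa using this.tendsto (0, w)
    refine Eventually.and (hsm.eventually (hC.and (hU.mem_nhds h0))) ?_
    refine ContinuousAt.eventually_lt (Continuous.continuousAt (by fun_prop))
      (hPc.comp continuous_snd).norm.continuousAt ?_
    have : P w ≠ 0 := mul_ne_zero (inv_ne_zero (by exact_mod_cast n.factorial_ne_zero)) (hw w hwK)
    simpa using this
  obtain ⟨ρ, hρ, hs⟩ := (isCompact_singleton.prod hK).exists_thickening_subset_open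
    isOpen_interior hSn
  have hs' : ∀ y ∈ ball (0 : ℂ) ρ ×ˢ thickening ρ K, y ∈ S := by
    intro y hy
    obtain ⟨w, hwK, hd⟩ := mem_thickening_iff.mp hy.2
    refine interior_subset (hs (mem_thickening_iff.mpr ⟨(0, w), ⟨rfl, hwK⟩, ?_⟩))
    rw [Prod.dist_eq]
    exact max_lt hy.1 hd
  have hP0 : ∀ x ∈ thickening ρ K, P x ≠ 0 := fun x hx => by
    have := (hs' (0, x) ⟨mem_ball_self hρ, hx⟩).2
    simpa using this
  refine ⟨ρ, hρ, fun y hy => (hs' y hy).1.2, ?_⟩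
  have h2 : HL (fun y : ℂ × E => g (y.1 • y.2) / (y.1 ^ n * P y.2))
      ((ball 0 ρ \ {0}) ×ˢ thickening ρ K) := by
    refine HL.of_close (hg.continuousOn.comp (by fun_prop)
      fun y hy => (hs' y ⟨hy.1.1, hy.2⟩).1.2) (by fun_prop) fun y hy => ?_
    obtain ⟨⟨b1, -⟩, b2⟩ := hs' y ⟨hy.1.1, hy.2⟩
    have ha : 0 < ‖y.1‖ ^ n := pow_pos (norm_pos_iff.mpr hy.1.2) n
    rw [hPs, norm_smul, mul_pow, pow_succ ‖y.1‖] at b1
    rw [norm_mul, norm_pow]
    have := mul_lt_mul_of_pos_left b2 ha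
    nlinarith
  have h3 := (HL.of_convex (hKc.thickening ρ) isOpen_thickening hPc.continuousOn hP0).comp
    (u := Prod.snd) (t := (ball (0 : ℂ) ρ \ {0}) ×ˢ thickening ρ K) continuousOn_snd
    fun y hy => hy.2
  refine (h2.mul h3).congr' fun y hy => ?_
  have : y.1 ≠ 0 := hy.1.2
  have := hP0 _ hy.2
  rw [zpow_natCast]
  field_simp

end Vale.Agent.P268
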