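import Mathlib

/-! Multiplicity, tangent cone, generic smoothness and tangency to a line. -/

namespace Vale.Agent.P268

open Filter Topology

variable {E : Type*} [NormedAddCommGroup E] [NormedSpace ℂ E]

/-- The order of `f` at the origin is `m`: the least order of a nonzero derivative. -/
def IsMult (f : E → ℂ) (m : ℕ) : Prop :=
  (∀ k < m, iteratedFDeriv ℂ k f 0 = 0) ∧ iteratedFDeriv ℂ m f 0 ≠ 0

/-- The homogeneous part of degree `m` of `f` does not vanish at `v`. -/
def OffCone (f : E → ℂ) (m : ℕ) (v : E) : Prop :=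
  iteratedFDeriv ℂ m f 0 (fun _ => v) ≠ 0

/-- The zeros of `f` with nonzero differential are dense in the zero set of `f` in `U`. -/
def GenSmooth (f : E → ℂ) (U : Set E) : Prop :=
  ∀ q ∈ U, f q = 0 → ∃ᶠ y in 𝓝 q, f y = 0 ∧ fderiv ℂ f y ≠ 0

/-- The image under `φ` of the germ of the line spanned by `v` lies in the cone over a compact
convex subset of an affine hyperplane `l = 1` on which the homogeneous part of degree `n` of `g`
has no zero. -/
def InCone (φ : E → E) (v : E) (g : E → ℂ) (n : ℕ) : Prop :=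
  ∃ (l : E →L[ℂ] ℂ) (C : Set E), IsCompact C ∧ Convex ℝ C ∧ (∀ x ∈ C, l x = 1 ∧ OffCone g n x) ∧
    ∀ᶠ z in 𝓝 (0 : ℂ), ∃ t : ℂ, ∃ x ∈ C, φ (z • v) = t • x

/-- The image under `φ` of the germ of the line spanned by `v` is tangent at the origin to the
line spanned by `w`. -/
def TangentLine (φ : E → E) (v w : E) : Prop :=
  ∀ η : ℝ, 0 < η → ∀ᶠ z in 𝓝 (0 : ℂ), ∃ t : ℂ, ‖φ (z • v) - t • w‖ ≤ η * ‖φ (z • v)‖

/-- The restriction of `φ` to the germ of the line spanned by `v` factors continuously through a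
holomorphic curve germ. -/
def OnCurve (φ : E → E) (v : E) : Prop :=
  ∃ (γ : ℂ → E) (ψ : ℂ → ℂ), AnalyticAt ℂ γ 0 ∧ γ 0 = 0 ∧ ψ 0 = 0 ∧
    ∀ᶠ z in 𝓝 (0 : ℂ), ContinuousAt ψ z ∧ φ (z • v) = γ (ψ z)

/-- Some line outside the tangent cone of `f` has an image germ that is tangent to a line outside
the tangent cone of `g`, or lies in a convex cone outside it, or lies on a holomorphic curve. -/
def GoodLine (φ : E → E) (f : E → ℂ) (m : ℕ) (g : E → ℂ) (n : ℕ) : Prop :=
  ∃ v : E, OffCone f m v ∧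
    ((∃ w : E, OffCone g n w ∧ TangentLine φ v w) ∨ InCone φ v g n ∨ OnCurve φ v)

end Vale.Agent.P268
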