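import Vale.Agent.P268.Log

namespace Vale.Agent.P268

open Metric Set Filter Topology Complex

theorem HL_sphere_of_local {R r : ℝ} (hrR : r < R) (Z : Finset ℂ) :
    (∀ z ∈ Z, ‖z‖ < r) → ∀ P : ℂ → ℂ, ContinuousOn P (ball 0 R \ Z) →
      (∀ x ∈ ball (0 : ℂ) R \ Z, P x ≠ 0) → (∀ z ∈ Z, ∃ δ > 0, HL P (ball z δ \ {z})) →
      HL P (sphere 0 r) := by
  classical
  induction Z using Finset.induction_on with
  | empty =>
    intro _ P hP h0 _
    simp only [Finset.coe_empty, sdiff_empty] at hP h0
    exact (HL.of_convex (convex_ball _ _) isOpen_ball hP h0).mono (sphere_subset_ball hrR)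
  | insert a Z ha ih =>
    intro hZ P hP h0 hloc
    obtain ⟨δ, hδ, l, hl1, hl2⟩ := hloc a (Finset.mem_insert_self _ _)
    have hopen : IsOpen (ball (0 : ℂ) r \ Z ∩ ball a δ) :=
      (isOpen_ball.sdiff Z.finite_toSet.isClosed).inter isOpen_ball
    obtain ⟨ε, hε, hεs⟩ := Metric.isOpen_iff.mp hopen a
      ⟨⟨mem_ball_zero_iff.mpr (hZ a (Finset.mem_insert_self _ _)), by simpa using ha⟩,
        mem_ball_self hδ⟩
    set χ : ℂ → ℝ := fun x => max 0 (min 1 (2 - dist x a / (ε / 3))) with hχ
    have hχc : Continuous χ := by fun_prop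
    have hχ1 : ∀ x, dist x a < ε / 3 → χ x = 1 := by
      intro x hx
      have : dist x a / (ε / 3) < 1 := (div_lt_one (by positivity)).mpr hx
      simp only [hχ]
      rw [min_eq_left (by linarith), max_eq_right zero_le_one]
    have hχ0 : ∀ x, 2 * (ε / 3) < dist x a → χ x = 0 := by
      intro x hx
      have : 2 < dist x a / (ε / 3) := (lt_div_iff₀ (by positivity)).mpr hx
      simp only [hχ]
      exact max_eq_left ((min_le_right _ _).trans (by linarith))
    set P' : ℂ → ℂ := fun x => if x = a then 1 else P x * exp (-(χ x * l x)) with hP'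
    have hin : ∀ x, dist x a < ε → x ≠ a → x ∈ ball a δ \ {a} := fun x hx hxa =>
      ⟨(hεs hx).2, hxa⟩
    have e1 : ∀ x, dist x a < ε / 3 → P' x = 1 := by
      intro x hx
      by_cases hxa : x = a
      · simp only [hP', if_pos hxa]
      · simp only [hP', if_neg hxa]
        rw [hχ1 x hx, ← hl2 x (hin x (by linarith) hxa), ← exp_add]
        simp
    have e2 : ∀ x, 2 * (ε / 3) < dist x a → P' x = P x := by
      intro x hx
      have hxa : x ≠ a := by
        rintro rfl
        rw [dist_self] at hx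
        linarith
      simp only [hP', if_neg hxa]
      rw [hχ0 x hx]
      simp
    have e3 : ∀ x, dist x a < ε → x ≠ a → P' x = exp (l x) * exp (-(χ x * l x)) := by
      intro x hx hxa
      simp only [hP', if_neg hxa]
      rw [hl2 x (hin x hx hxa)]
    have hmem : ∀ x ∈ ball (0 : ℂ) R \ Z, x ≠ a → x ∈ ball (0 : ℂ) R \ (insert a Z : Finset ℂ) := by
      intro x hx hxa
      refine ⟨hx.1, ?_⟩
      simp only [Finset.coe_insert, mem_insert_iff, not_or]
      exact ⟨hxa, hx.2⟩
    have hdc : Continuous fun x : ℂ => dist x a := by fun_prop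
    have key := ih (fun z hz => hZ z (Finset.mem_insert_of_mem hz)) P' (fun x hx => ?_)
      (fun x hx => ?_) (fun z hz => ?_)
    · refine key.congr' fun x hx => e2 x ?_
      by_contra hlt
      have := (hεs (show x ∈ ball a ε by rw [mem_ball]; linarith [not_lt.mp hlt])).1.1
      rw [mem_ball_zero_iff, mem_sphere_zero_iff_norm.mp hx] at this
      exact lt_irrefl _ this
    · refine ContinuousAt.continuousWithinAt ?_
      by_cases h1 : dist x a < ε / 3
      · refine continuousAt_const.congr (f := fun _ => (1 : ℂ)) ?_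
        filter_upwards [hdc.continuousAt.eventually (gt_mem_nhds h1)] with y hy using (e1 y hy).symm
      · have hxa : x ≠ a := by
          rintro rfl
          exact h1 (by rw [dist_self]; positivity)
        by_cases h2 : 2 * (ε / 3) < dist x a
        · have hPx : ContinuousAt P x := hP.continuousAt
            ((isOpen_ball.sdiff (Finset.finite_toSet _).isClosed).mem_nhds (hmem x hx hxa))
          refine hPx.congr ?_
          filter_upwards [hdc.continuousAt.eventually (lt_mem_nhds h2)] with y hy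
            using (e2 y hy).symm
        · have h3 : dist x a < ε := by linarith [not_lt.mp h2]
          have hlx : ContinuousAt l x := hl1.continuousAt
            ((isOpen_ball.sdiff isClosed_singleton).mem_nhds (hin x h3 hxa))
          have hc : ContinuousAt (fun y => exp (l y) * exp (-(χ y * l y))) x :=
            hlx.cexp.mul (((continuous_ofReal.comp hχc).continuousAt.mul hlx).neg.cexp)
          refine hc.congr ?_
          filter_upwards [hdc.continuousAt.eventually (gt_mem_nhds h3),
            isOpen_ne.mem_nhds hxa] with y hy hya using (e3 y hy hya).symm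
    · by_cases hxa : x = a
      · simp only [hP', if_pos hxa]
        exact one_ne_zero
      · simp only [hP', if_neg hxa]
        exact mul_ne_zero (h0 x (hmem x hx hxa)) (exp_ne_zero _)
    · obtain ⟨δ', hδ', h'⟩ := hloc z (Finset.mem_insert_of_mem hz)
      have hza : ε ≤ dist z a := by
        by_contra hlt
        exact (hεs (show z ∈ ball a ε from not_le.mp hlt)).1.2 hz
      refine ⟨min δ' (ε / 3), lt_min hδ' (by positivity), ?_⟩
      refine (h'.mono (sdiff_subset_sdiff_left (ball_subset_ball (min_le_left _ _)))).congr'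
        fun x hx => (e2 x ?_).symm
      have h1 : dist x z < ε / 3 := (mem_ball.mp hx.1).trans_le (min_le_right _ _)
      linarith [dist_triangle z x a, dist_comm x z]

theorem wind_sum {R r : ℝ} (hr : 0 < r) (hrR : r < R) (Z : Finset ℂ) (hZ : ∀ z ∈ Z, ‖z‖ < r)
    {H : ℂ → ℂ} (hH : ContinuousOn H (ball 0 R \ Z)) (h0 : ∀ x ∈ ball (0 : ℂ) R \ Z, H x ≠ 0)
    (k : ℂ → ℤ) (hloc : ∀ z ∈ Z, ∃ δ > 0, HL (fun x => H x / (x - z) ^ k z) (ball z δ \ {z})) :
    HL (fun x => H x / x ^ (∑ z ∈ Z, k z)) (sphere 0 r) := by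
  classical
  have hne : ∀ x ∈ ball (0 : ℂ) R \ Z, ∀ z ∈ Z, x - z ≠ 0 := fun x hx z hz h =>
    hx.2 (by rw [sub_eq_zero.mp h]; exact hz)
  have hP := HL_sphere_of_local hrR Z hZ (fun x => H x / ∏ z ∈ Z, (x - z) ^ k z)
    (hH.div (continuousOn_finsetProd _ fun z hz =>
      (continuousOn_id.sub continuousOn_const).zpow₀ _ fun x hx => Or.inl (hne x hx z hz))
      fun x hx => Finset.prod_ne_zero_iff.mpr fun z hz => zpow_ne_zero _ (hne x hx z hz))
    (fun x hx => div_ne_zero (h0 x hx)
      (Finset.prod_ne_zero_iff.mpr fun z hz => zpow_ne_zero _ (hne x hx z hz))) (fun z hz => ?_)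
  · have h2 : HL (fun x => ∏ z ∈ Z, ((x - z) / x) ^ k z) (sphere (0 : ℂ) r) := by
      refine HL.prod Z _ fun z hz => HL.zpow ?_ _
      refine HL.of_close (F := fun x => x - z) (G := fun x => x) (by fun_prop) (by fun_prop)
        fun x hx => ?_
      rw [mem_sphere_zero_iff_norm.mp hx]
      simpa using hZ z hz
    refine (hP.mul h2).congr' fun x hx => ?_
    have hx0 : x ≠ 0 := ne_of_mem_sphere hx hr.ne'
    have hxz : ∀ z ∈ Z, x - z ≠ 0 := fun z hz h => by
      have := hZ z hz
      rw [← sub_eq_zero.mp h, mem_sphere_zero_iff_norm.mp hx] at this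
      exact lt_irrefl _ this
    have hp : (∏ z ∈ Z, (x - z) ^ k z) ≠ 0 :=
      Finset.prod_ne_zero_iff.mpr fun z hz => zpow_ne_zero _ (hxz z hz)
    have e : x ^ (∑ z ∈ Z, k z) = ∏ z ∈ Z, x ^ k z := by
      clear hP h2 hloc hne h0 hH hZ hxz hp
      induction Z using Finset.induction_on with
      | empty => simp
      | insert a Z ha ih => rw [Finset.sum_insert ha, Finset.prod_insert ha, zpow_add₀ hx0, ih]
    simp only [div_zpow, Finset.prod_div_distrib]
    rw [e]
    field_simp
  · obtain ⟨δ, hδ, h1⟩ := hloc z hz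
    have hopen : IsOpen (((Z.erase z : Finset ℂ) : Set ℂ)ᶜ ∩ ball z δ) :=
      (Finset.finite_toSet _).isClosed.isOpen_compl.inter isOpen_ball
    obtain ⟨ε, hε, hεs⟩ := Metric.isOpen_iff.mp hopen z ⟨by simp, mem_ball_self hδ⟩
    have h2 : HL (fun x => ∏ y ∈ Z.erase z, (x - y) ^ k y) (ball z ε) := by
      refine HL.prod _ _ fun y hy => HL.zpow ?_ _
      refine HL.of_convex (convex_ball _ _) isOpen_ball (F := fun x => x - y) (by fun_prop)
        fun x hx h => ?_
      exact (hεs hx).1 (by rw [sub_eq_zero.mp h]; exact hy)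
    refine ⟨ε, hε, ((h1.mono (sdiff_subset_sdiff_left fun x hx => (hεs hx).2)).mul
      (h2.mono sdiff_subset).inv).congr' fun x _ => ?_⟩
    rw [← Finset.mul_prod_erase Z _ hz, div_mul_eq_div_div, div_eq_mul_inv (H x / _)]

theorem analytic_local {F : ℂ → ℂ} {z : ℂ} (hF : AnalyticAt ℂ F z) (hz : F z = 0)
    (hn : ¬ ∀ᶠ x in 𝓝 z, F x = 0) :
    ∃ e : ℤ, 1 ≤ e ∧ ∃ δ > 0, HL (fun x => F x / (x - z) ^ e) (ball z δ \ {z}) := by
  obtain ⟨n, G, hG, hG0, hev⟩ := hF.exists_eventuallyEq_pow_smul_nonzero_iff.mpr hn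
  have hn0 : n ≠ 0 := by
    rintro rfl
    have := hev.self_of_nhds
    simp only [pow_zero, one_smul] at this
    exact hG0 (this.symm.trans hz)
  obtain ⟨δ, hδ, hs⟩ := Metric.mem_nhds_iff.mp
    (hev.and (hG.eventually_analyticAt.and (hG.continuousAt.eventually_ne hG0)))
  refine ⟨n, by omega, δ, hδ, ?_⟩
  refine ((HL.of_convex (convex_ball z δ) isOpen_ball (F := G)
    (fun x hx => (hs hx).2.1.continuousAt.continuousWithinAt)
    fun x hx => (hs hx).2.2).mono sdiff_subset).congr' fun x hx => ?_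
  have hx0 : x - z ≠ 0 := sub_ne_zero.mpr hx.2
  rw [(hs hx.1).1, smul_eq_mul, zpow_natCast]
  field_simp

end Vale.Agent.P268
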