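import Vale.Agent.P268.Hold

namespace Vale.Agent.P268

open Metric Set Filter Topology Complex

variable {E : Type*} [NormedAddCommGroup E] [NormedSpace ℂ E]

theorem crit2 [CompleteSpace E] (φ : OpenPartialHomeomorph E E) {f g : E → ℂ}
    (h0 : (0 : E) ∈ φ.source) (hf : AnalyticOnNhd ℂ f φ.source)
    (hg : AnalyticOnNhd ℂ g φ.target) 
    (hV : ∀ x ∈ φ.source, f x = 0 ↔ g (φ x) = 0)
    (sf : GenSmooth f φ.source) (sg : GenSmooth g φ.target) {m : ℕ}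
    (hm : ∀ k < m, iteratedFDeriv ℂ k f 0 = 0) {v : E} (hv : OffCone f m v)
    {O : Set E} (hO : Convex ℝ O) (hOo : IsOpen O) {ρ : ℝ} (hρ : 0 < ρ) {G : ℂ × E → E}
    (hGc : ContinuousOn G ((ball 0 ρ \ {0}) ×ˢ O))
    (hin : ∀ y ∈ (ball (0 : ℂ) ρ \ {0}) ×ˢ O, G y ∈ φ.target) {n : ℕ}
    (h0' : (0 : E) ∈ φ.target) {x0 w : E} (hx0 : x0 ∈ O) (hGw : ∀ a : ℂ, G (a, x0) = a • w)
    (hgl : HL (fun y : ℂ × E => g (G y) / y.1 ^ (n : ℤ)) ((ball 0 ρ \ {0}) ×ˢ O))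
    {a : ℂ → ℂ} {x : ℂ → E} (hev : ∀ᶠ z in 𝓝[≠] (0 : ℂ), ContinuousAt a z ∧ ContinuousAt x z ∧
      (a z, x z) ∈ (ball (0 : ℂ) ρ \ {0}) ×ˢ O ∧ G (a z, x z) = φ (z • v)) :
    n ∣ m := by
  obtain ⟨ρf, hρf, hinf, hfl⟩ := expand φ.open_source h0 hf hm hv
  have hgne : ∀ y ∈ (ball (0 : ℂ) ρ \ {0}) ×ˢ O, g (G y) ≠ 0 := fun y hy h =>
    hgl.ne hy (by simp only [h, zero_div])
  obtain ⟨i, hi⟩ := exists_wind hO hOo hρ (F := fun y => f (φ.symm (G y)))
    (hf.continuousOn.comp (φ.continuousOn_symm.comp hGc hin) fun y hy => φ.map_target (hin y hy))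
    fun y hy h => hgne y hy (by
      have := (hV _ (φ.map_target (hin y hy))).mp h
      rwa [φ.right_inv (hin y hy)] at this)
  obtain ⟨R1, hR1, hs⟩ := Metric.mem_nhds_iff.mp
    ((eventually_nhdsWithin_iff.mp hev).and (ball_mem_nhds (0 : ℂ) hρf))
  have hsrc : ∀ z ∈ ball (0 : ℂ) R1, z • v ∈ φ.source := fun z hz =>
    hinf z (hs hz).2 v (mem_ball_self hρf)
  have hac : ContinuousOn a (ball 0 R1 \ {0}) := fun z hz =>
    ((hs hz.1).1 hz.2).1.continuousWithinAt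
  have huc : ContinuousOn (fun z : ℂ => (a z, x z)) (ball 0 R1 \ {0}) :=
    hac.prodMk fun z hz => ((hs hz.1).1 hz.2).2.1.continuousWithinAt
  have hum : MapsTo (fun z : ℂ => (a z, x z)) (ball 0 R1 \ {0}) ((ball (0 : ℂ) ρ \ {0}) ×ˢ O) :=
    fun z hz => ((hs hz.1).1 hz.2).2.2.1
  have hcan : ∀ z ∈ ball (0 : ℂ) R1 \ {0}, G (a z, x z) = φ (z • v) := fun z hz =>
    ((hs hz.1).1 hz.2).2.2.2
  have ha0 : ∀ z ∈ ball (0 : ℂ) R1 \ {0}, a z ≠ 0 := fun z hz => (hum hz).1.2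
  obtain ⟨j, hj⟩ := exists_wind (Q := ℝ) convex_univ isOpen_univ hR1
    (F := fun y => a y.1) (hac.comp continuousOn_fst fun y hy => hy.1) fun y hy => ha0 _ hy.1
  have hj' : HL (fun z : ℂ => a z / z ^ j) (ball 0 R1 \ {0}) :=
    hj.comp (u := fun z : ℂ => (z, (0 : ℝ))) (by fun_prop) fun z hz => ⟨hz, mem_univ _⟩
  have A1 : HL (fun z : ℂ => f (z • v) / z ^ (j * i)) (ball 0 R1 \ {0}) := by
    refine ((hi.comp huc hum).mul (hj'.zpow i)).congr' fun z hz => ?_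
    have := zpow_ne_zero i (ha0 z hz)
    simp only [hcan z hz, φ.left_inv (hsrc z hz.1)]
    rw [div_zpow, ← zpow_mul]
    field_simp
  have A2 : HL (fun z : ℂ => g (φ (z • v)) / z ^ (j * n)) (ball 0 R1 \ {0}) := by
    refine ((hgl.comp huc hum).mul (hj'.zpow n)).congr' fun z hz => ?_
    have := zpow_ne_zero (n : ℤ) (ha0 z hz)
    simp only [hcan z hz]
    rw [div_zpow, ← zpow_mul]
    field_simp
  have A3 : HL (fun z : ℂ => f (z • v) / z ^ (m : ℤ)) (ball 0 R1 \ {0}) :=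
    hfl.comp (u := fun z : ℂ => (z, v)) (by fun_prop)
      fun z hz => ⟨⟨(hs hz.1).2, hz.2⟩, mem_ball_self hρf⟩
  have hsph : sphere (0 : ℂ) (R1 / 4) ⊆ ball 0 R1 \ {0} := fun z hz =>
    ⟨sphere_subset_ball (by linarith) hz, ne_of_mem_sphere hz (by positivity)⟩
  have hmi : j * i = m := wind_unique (by positivity) (A1.mono hsph) (A3.mono hsph)
  have h1 := (core φ hf hg hV sf sg hR1 hsrc A2 A3).1
  have hV2 : ∀ y ∈ φ.symm.source, g y = 0 ↔ f (φ.symm y) = 0 := fun y hy => by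
    have := hV _ (φ.map_target hy)
    rw [φ.right_inv hy] at this
    exact this.symm
  have hum2 : MapsTo (fun z : ℂ => (z, x0)) (ball 0 ρ \ {0}) ((ball (0 : ℂ) ρ \ {0}) ×ˢ O) :=
    fun z hz => ⟨hz, hx0⟩
  have h2 := (core φ.symm hg hf hV2 sg sf (m := n) (k := i) (v := w) hρ (fun z hz => by
      by_cases hz0 : z = 0
      · rw [hz0, zero_smul]; exact h0'
      · rw [← hGw]; exact hin _ (hum2 ⟨hz, hz0⟩))
    ((hi.comp (by fun_prop) hum2).congr' fun z _ => by simp only [hGw])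
    ((hgl.comp (by fun_prop) hum2).congr' fun z _ => by simp only [hGw])).1
  have h3 : (m : ℤ) = |j| * |i| := by rw [← abs_mul, hmi, Nat.abs_cast]
  rw [abs_mul, Nat.abs_cast] at h1
  have h4 : |j| * |i| ≤ |j| * n := mul_le_mul_of_nonneg_left h2 (abs_nonneg j)
  exact Int.natCast_dvd_natCast.mp ⟨|j|, by linarith⟩

theorem dvd_of_cone [CompleteSpace E] (φ : OpenPartialHomeomorph E E) {f g : E → ℂ}
    (h0 : (0 : E) ∈ φ.source) (hφ0 : φ 0 = 0) (hf : AnalyticOnNhd ℂ f φ.source)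
    (hg : AnalyticOnNhd ℂ g φ.target) (hf0 : f 0 = 0)
    (hV : ∀ x ∈ φ.source, f x = 0 ↔ g (φ x) = 0)
    (sf : GenSmooth f φ.source) (sg : GenSmooth g φ.target) {m n : ℕ}
    (hm : ∀ k < m, iteratedFDeriv ℂ k f 0 = 0) (hn : ∀ k < n, iteratedFDeriv ℂ k g 0 = 0)
    {v : E} (hv : OffCone f m v)
    (hc : (∃ w : E, OffCone g n w ∧ TangentLine φ v w) ∨ InCone φ v g n) : n ∣ m := by
  have h0' : (0 : E) ∈ φ.target := hφ0 ▸ φ.map_source h0
  have hg0 : g 0 = 0 := hφ0 ▸ (hV 0 h0).mp hf0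
  obtain ⟨-, hv0⟩ := ne_zero_of_offCone hf0 hv
  have hsrc : ∀ᶠ z in 𝓝 (0 : ℂ), z • v ∈ φ.source := by
    have : Continuous fun z : ℂ => z • v := by fun_prop
    exact this.continuousAt.eventually (p := fun y => y ∈ φ.source)
      (by simp only [zero_smul]; exact φ.open_source.mem_nhds h0)
  have hφc : ∀ z : ℂ, z • v ∈ φ.source → ContinuousAt (fun z : ℂ => φ (z • v)) z := fun z hz =>
    ContinuousAt.comp (f := fun z : ℂ => z • v) (φ.continuousAt hz) (by fun_prop)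
  have hne : ∀ z : ℂ, z • v ∈ φ.source → z ≠ 0 → φ (z • v) ≠ 0 := fun z hz hz0 h =>
    smul_ne_zero hz0 hv0 (φ.injOn hz h0 (h.trans hφ0.symm))
  have hcone : ∀ (l : E →L[ℂ] ℂ) (O : Set E) (ρ : ℝ), Convex ℝ O → IsOpen O → 0 < ρ →
      (∀ y ∈ (ball (0 : ℂ) ρ \ {0}) ×ˢ O, y.1 • y.2 ∈ φ.target) →
      HL (fun y : ℂ × E => g (y.1 • y.2) / y.1 ^ (n : ℤ)) ((ball 0 ρ \ {0}) ×ˢ O) →
      (∀ᶠ z in 𝓝[≠] (0 : ℂ), l (φ (z • v)) ≠ 0 ∧ (l (φ (z • v)))⁻¹ • φ (z • v) ∈ O) → n ∣ m := by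
    intro l O ρ hO hOo hρ hin hgl hev
    have hca : ContinuousAt (fun z : ℂ => l (φ (z • v))) 0 :=
      l.continuous.continuousAt.comp (hφc 0 hsrc.self_of_nhds)
    have hb : ∀ᶠ z in 𝓝 (0 : ℂ), l (φ (z • v)) ∈ ball (0 : ℂ) ρ :=
      hca.eventually (p := fun a => a ∈ ball (0 : ℂ) ρ)
        (by simp only [zero_smul, hφ0, map_zero]; exact ball_mem_nhds (0 : ℂ) hρ)
    obtain ⟨z0, -, hz0⟩ := hev.exists
    exact crit2 φ h0 hf hg hV sf sg hm hv hO hOo hρ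
      (G := fun y => y.1 • y.2) (by fun_prop) hin h0' hz0 (fun _ => rfl) hgl (a := fun z => l (φ (z • v)))
      (x := fun z => (l (φ (z • v)))⁻¹ • φ (z • v)) (by
        filter_upwards [hev, nhdsWithin_le_nhds hsrc, nhdsWithin_le_nhds hb] with z h1 h2 h3
        have c1 : ContinuousAt (fun z : ℂ => l (φ (z • v))) z :=
          l.continuous.continuousAt.comp (hφc z h2)
        refine ⟨c1, (c1.inv₀ h1.1).smul (hφc z h2), ⟨⟨h3, h1.1⟩, h1.2⟩, ?_⟩
        rw [smul_smul, mul_inv_cancel₀ h1.1, one_smul])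
  rcases hc with ⟨w, hw, ht⟩ | ⟨l, C, hC, hCc, hCl, hev⟩
  · obtain ⟨-, hw0⟩ := ne_zero_of_offCone hg0 hw
    obtain ⟨ρ, hρ, hin, hgl⟩ := expand φ.open_target h0' hg hn hw
    obtain ⟨l, hl⟩ := SeparatingDual.exists_eq_one (R := ℂ) hw0
    obtain ⟨η, hη, hnear⟩ := near_line l hl hρ
    refine hcone l _ ρ (convex_ball w ρ) isOpen_ball hρ (fun y hy => hin _ hy.1.1 _ hy.2) hgl ?_
    filter_upwards [nhdsWithin_le_nhds (ht η hη), nhdsWithin_le_nhds hsrc, self_mem_nhdsWithin]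
      with z h1 h2 h3
    obtain ⟨t, ht'⟩ := h1
    exact hnear _ t (hne z h2 h3) ht'
  · obtain ⟨ρ, hρ, hin, hgl⟩ := expand_cone φ.open_target h0' hg hn hC hCc fun x hx => (hCl x hx).2
    refine hcone l _ ρ (hCc.thickening ρ) isOpen_thickening hρ
      (fun y hy => hin y ⟨hy.1.1, hy.2⟩) hgl ?_
    filter_upwards [nhdsWithin_le_nhds hev, nhdsWithin_le_nhds hsrc, self_mem_nhdsWithin]
      with z h1 h2 h3
    obtain ⟨t, x, hx, e⟩ := h1
    have ht0 : t ≠ 0 := by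
      rintro rfl
      exact hne z h2 h3 (by rw [e, zero_smul])
    have e2 : l (φ (z • v)) = t := by rw [e, map_smul, (hCl x hx).1, smul_eq_mul, mul_one]
    rw [e2, e, smul_smul, inv_mul_cancel₀ ht0, one_smul]
    exact ⟨ht0, self_subset_thickening hρ C hx⟩

theorem hold_dvd [CompleteSpace E] (φ : OpenPartialHomeomorph E E) {f g : E → ℂ}
    (h0 : (0 : E) ∈ φ.source) (hφ0 : φ 0 = 0) (hf : AnalyticOnNhd ℂ f φ.source)
    (hg : AnalyticOnNhd ℂ g φ.target) (hf0 : f 0 = 0)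
    (hV : ∀ x ∈ φ.source, f x = 0 ↔ g (φ x) = 0)
    (sf : GenSmooth f φ.source) (sg : GenSmooth g φ.target) {m n : ℕ}
    (hm : ∀ k < m, iteratedFDeriv ℂ k f 0 = 0) (hn : ∀ k < n, iteratedFDeriv ℂ k g 0 = 0)
    {v : E} (hv : OffCone f m v) (hc : PowCone g n) {β : ℝ} (hβ : 0 < β) (hβ1 : β ≤ 1)
    (hnβ : (n : ℝ) < β * (n + 1))
    (hq : ∀ t : ℝ, 0 < t → ∃ H : ℝ, 0 < H ∧ ∀ x ∈ φ.source, ∀ b ∈ φ.source,
      dist x 0 ≤ t * dist x b → dist (φ x) 0 ≤ H * dist (φ x) (φ b) ^ β) : n ∣ m := by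
  obtain ⟨l, hl0, hl⟩ := hc
  have hn0 : 0 < n := by
    refine Nat.pos_of_ne_zero ?_
    rintro rfl
    have h1 := hl 0
    have h2 : g 0 = 0 := hφ0 ▸ (hV 0 h0).mp hf0
    simp [h2] at h1
  have h0' : (0 : E) ∈ φ.target := hφ0 ▸ φ.map_source h0
  obtain ⟨-, hv0⟩ := ne_zero_of_offCone hf0 hv
  obtain ⟨w, hw⟩ : ∃ w, l w = 1 := by
    obtain ⟨x, hx⟩ : ∃ x, l x ≠ 0 := by
      by_contra hcon
      push Not at hcon
      exact hl0 (ContinuousLinearMap.ext hcon)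
    exact ⟨(l x)⁻¹ • x, by rw [map_smul, smul_eq_mul, inv_mul_cancel₀ hx]⟩
  have hwp : 0 < ‖w‖ := norm_pos_iff.mpr (by rintro rfl; simp at hw)
  have hvp : 0 < ‖v‖ := norm_pos_iff.mpr hv0
  have hfac0 : (n.factorial : ℂ) ≠ 0 := by exact_mod_cast n.factorial_ne_zero
  have hfac : (n.factorial : ℂ)⁻¹ ≠ 0 := inv_ne_zero hfac0
  obtain ⟨ρf, hρf, hinf, hfl⟩ := expand φ.open_source h0 hf hm hv
  obtain ⟨H, hH, hW⟩ := hq (‖v‖ / ρf) (by positivity)
  set ε : ℝ := (1 / (2 * H)) ^ β⁻¹ / (2 * ‖w‖) with hε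
  have hε0 : 0 < ε := by positivity
  have hεβ : H * (2 * ε * ‖w‖) ^ β = 1 / 2 := by
    have : 2 * ε * ‖w‖ = (1 / (2 * H)) ^ β⁻¹ := by rw [hε]; field_simp
    rw [this, Real.rpow_inv_rpow (by positivity) hβ.ne']
    field_simp
  clear_value ε
  clear hε
  have hq0 : 0 < (ε / 2) ^ β := by positivity
  set B : ℝ := (1 + ε * ‖w‖) / (ε / 2) ^ β with hB
  have hB0 : 0 < B := by positivity
  set B2 : ℝ := ‖w‖ + (B + 1) * (1 + ‖l‖ * ‖w‖) with hB2
  have hBB : B ≤ B2 := by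
    rw [hB2]
    nlinarith [mul_nonneg (norm_nonneg l) hwp.le]
  obtain ⟨ρ, hρ, hρ1, hd⟩ := dom φ.open_target h0' hg hn hl hβ hnβ (hB0.trans_le hBB)
  obtain ⟨r0, hr0, hr0s⟩ := Metric.isOpen_iff.mp φ.open_target 0 h0'
  have hlowB : ∀ (y : E) (τ : ℝ), ε * ‖y‖ ^ β⁻¹ / 2 ≤ τ → (1 + ε * ‖w‖) * ‖y‖ ≤ B * τ ^ β := by
    intro y τ h
    have h1 : (ε / 2 * ‖y‖ ^ β⁻¹) ^ β ≤ τ ^ β :=
      Real.rpow_le_rpow (by positivity) (by linarith) hβ.le
    rw [Real.mul_rpow (by positivity) (by positivity),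
      Real.rpow_inv_rpow (norm_nonneg _) hβ.ne'] at h1
    calc (1 + ε * ‖w‖) * ‖y‖ = B * ((ε / 2) ^ β * ‖y‖) := by rw [hB]; field_simp
      _ ≤ B * τ ^ β := by gcongr
  clear_value B2 B
  have ea : ∀ (y : E) (s : ℂ), l (y + s • w) = l y + s := fun y s => by
    rw [map_add, map_smul, hw, smul_eq_mul, mul_one]
  have key : ∀ y : E, y ≠ 0 → ‖y‖ < 1 → 2 * ε * ‖y‖ < ρ → (1 + 2 * ε * ‖w‖) * ‖y‖ < r0 →
      ‖l y‖ < ε * ‖y‖ ^ β⁻¹ / 2 → ∃ s : ℂ, ‖s‖ < 2 * (ε * ‖y‖ ^ β⁻¹) ∧ y + s • w ∈ φ.target ∧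
        g (y + s • w) = 0 := by
    intro y hy b0 b1 b2 b3
    have hyp : 0 < ‖y‖ := norm_pos_iff.mpr hy
    have hσ : 0 < ε * ‖y‖ ^ β⁻¹ := by positivity
    have hσ1 : ε * ‖y‖ ^ β⁻¹ ≤ ε * ‖y‖ := by
      refine mul_le_mul_of_nonneg_left ?_ hε0.le
      have := Real.rpow_le_rpow_of_exponent_ge hyp b0.le ((one_le_inv₀ hβ).mpr hβ1)
      rwa [Real.rpow_one] at this
    set σ : ℝ := ε * ‖y‖ ^ β⁻¹ with hσd
    have hT : ∀ s ∈ ball (0 : ℂ) (2 * σ), y + s • w ∈ φ.target := by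
      intro s hs
      refine hr0s (mem_ball_zero_iff.mpr ((norm_add_le _ _).trans_lt ?_))
      rw [norm_smul]
      have := mul_lt_mul_of_pos_right (mem_ball_zero_iff.mp hs) hwp
      have e := mul_le_mul_of_nonneg_right hσ1 hwp.le
      linarith
    by_contra hcon
    push Not at hcon
    have c1 : HL (fun s : ℂ => g (y + s • w)) (ball 0 (2 * σ)) :=
      HL.of_convex (convex_ball _ _) isOpen_ball (hg.continuousOn.comp (by fun_prop) hT)
        fun s hs => hcon s (mem_ball_zero_iff.mp hs) (hT s hs)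
    have hlow : ∀ s ∈ sphere (0 : ℂ) σ, σ / 2 < ‖l y + s‖ := by
      intro s hs
      have h1 := mem_sphere_zero_iff_norm.mp hs
      have h2 : ‖s‖ ≤ ‖l y + s‖ + ‖l y‖ := by simpa using norm_sub_le (l y + s) (l y)
      linarith
    have hne : ∀ s ∈ sphere (0 : ℂ) σ, l y + s ≠ 0 := fun s hs =>
      norm_pos_iff.mp (lt_trans (by positivity) (hlow s hs))
    have hss : sphere (0 : ℂ) σ ⊆ ball 0 (2 * σ) := sphere_subset_ball (by linarith)
    have c2 : HL (fun s : ℂ => g (y + s • w) / ((n.factorial : ℂ)⁻¹ * (l y + s) ^ n))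
        (sphere 0 σ) := by
      refine HL.of_close (hg.continuousOn.comp (by fun_prop) fun s hs => hT s (hss hs))
        (by fun_prop) fun s hs => ?_
      have h1 := mem_sphere_zero_iff_norm.mp hs
      have h2 := hd (y + s • w) (by rw [ea]; exact hne s hs)
        (by rw [ea]; exact (norm_add_le _ _).trans_lt (by linarith)) (by
          rw [ea]
          refine (norm_add_le _ _).trans ?_
          rw [norm_smul, h1]
          have h3 := hlowB y _ (hlow s hs).le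
          have h4 : B * ‖l y + s‖ ^ β ≤ B2 * ‖l y + s‖ ^ β := by gcongr
          have e := mul_le_mul_of_nonneg_right hσ1 hwp.le
          linarith)
      rw [ea] at h2
      exact h2.2
    have c3 : HL (fun s : ℂ => (l y + s) / s) (sphere 0 σ) :=
      HL.of_close (F := fun s => l y + s) (G := fun s => s) (by fun_prop) (by fun_prop)
        fun s hs => by
          rw [mem_sphere_zero_iff_norm.mp hs, add_sub_cancel_right]
          linarith
    have c1' := c1.mono hss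
    have c4 : HL (fun s : ℂ => s ^ (n : ℤ)) (sphere 0 σ) := by
      refine (c1'.mul ((c2.mul (c3.zpow n)).mul (HL.const hfac _)).inv).congr' fun s hs => ?_
      have d1 := c1'.ne hs
      have d2 := hne s hs
      have d3 : s ≠ 0 := ne_of_mem_sphere hs hσ.ne'
      simp only [zpow_natCast, div_pow]
      field_simp
    exact hn0.ne' (by exact_mod_cast eq_zero_of_HL_zpow hσ c4)
  set G : ℂ × E → E := fun y => y.1 • w + ((‖y.1‖ ^ β : ℝ) : ℂ) • (y.2 - l y.2 • w) with hG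
  have hGc : Continuous G := by
    have : Continuous fun y : ℂ × E => ((‖y.1‖ ^ β : ℝ) : ℂ) :=
      continuous_ofReal.comp ((Real.continuous_rpow_const hβ.le).comp (by fun_prop))
    exact Continuous.add (by fun_prop) (this.smul (by fun_prop))
  have hGl : ∀ y, l (G y) = y.1 := fun y => by
    simp only [hG, map_add, map_smul, map_sub, hw, smul_eq_mul, mul_one, sub_self, mul_zero,
      add_zero]
  have hGd : ∀ y ∈ (ball (0 : ℂ) ρ \ {0}) ×ˢ ball (0 : E) (B + 1), G y ∈ φ.target ∧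
      ‖g (G y) - (n.factorial : ℂ)⁻¹ * y.1 ^ n‖ < ‖(n.factorial : ℂ)⁻¹ * y.1 ^ n‖ := by
    intro y hy
    have a0 : ‖y.1‖ < ρ := mem_ball_zero_iff.mp hy.1.1
    have a1 : ‖y.2‖ < B + 1 := mem_ball_zero_iff.mp hy.2
    have a2 : 0 < ‖y.1‖ := norm_pos_iff.mpr hy.1.2
    have h := hd (G y) (by rw [hGl]; exact hy.1.2) (by rw [hGl]; exact a0) (by
      rw [hGl]
      refine (norm_add_le _ _).trans ?_
      rw [norm_smul, norm_smul, Complex.norm_real, Real.norm_of_nonneg (by positivity)]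
      have e1 : ‖y.1‖ ≤ ‖y.1‖ ^ β := by
        have := Real.rpow_le_rpow_of_exponent_ge a2 (by linarith) hβ1
        rwa [Real.rpow_one] at this
      have e2 : ‖y.2 - l y.2 • w‖ ≤ (B + 1) * (1 + ‖l‖ * ‖w‖) := by
        refine (norm_sub_le _ _).trans ?_
        rw [norm_smul]
        have e3 : ‖l y.2‖ * ‖w‖ ≤ ‖l‖ * (B + 1) * ‖w‖ := by
          gcongr
          exact (l.le_opNorm _).trans (by gcongr)
        linarith
      have e4 := mul_le_mul_of_nonneg_left e2 (show 0 ≤ ‖y.1‖ ^ β by positivity)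
      have e5 := mul_le_mul_of_nonneg_right e1 hwp.le
      rw [hB2]
      linarith)
    rwa [hGl] at h
  have hgl : HL (fun y : ℂ × E => g (G y) / y.1 ^ (n : ℤ))
      ((ball (0 : ℂ) ρ \ {0}) ×ˢ ball (0 : E) (B + 1)) := by
    refine ((HL.of_close (F := fun y => g (G y)) (G := fun y => (n.factorial : ℂ)⁻¹ * y.1 ^ n)
      (hg.continuousOn.comp hGc.continuousOn fun y hy => (hGd y hy).1) (by fun_prop)
      fun y hy => (hGd y hy).2).mul (HL.const hfac _)).congr' fun y hy => ?_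
    have : y.1 ≠ 0 := hy.1.2
    rw [zpow_natCast]
    field_simp
  have hφc : ∀ z : ℂ, z • v ∈ φ.source → ContinuousAt (fun z : ℂ => φ (z • v)) z := fun z hz =>
    ContinuousAt.comp (f := fun z : ℂ => z • v) (φ.continuousAt hz) (by fun_prop)
  have hca : Tendsto (fun z : ℂ => ‖φ (z • v)‖) (𝓝 0) (𝓝 0) := by
    simpa [hφ0] using (hφc 0 (by rw [zero_smul]; exact h0)).norm.tendsto
  have tt : ∀ c d : ℝ, 0 < d → ∀ᶠ z in 𝓝[≠] (0 : ℂ), c * ‖φ (z • v)‖ < d := fun c d hd' =>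
    nhdsWithin_le_nhds ((by simpa using hca.const_mul c :
      Tendsto (fun z : ℂ => c * ‖φ (z • v)‖) (𝓝 0) (𝓝 0)).eventually (gt_mem_nhds hd'))
  exact crit2 φ h0 hf hg hV sf sg hm hv (convex_ball 0 (B + 1)) isOpen_ball hρ
    hGc.continuousOn (fun y hy => (hGd y hy).1) h0' (x0 := 0) (w := w)
    (mem_ball_self (by linarith)) (fun a => by simp [hG]) hgl (a := fun z => l (φ (z • v)))
    (x := fun z => ((‖l (φ (z • v))‖ ^ β : ℝ) : ℂ)⁻¹ • φ (z • v)) (by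
      filter_upwards [tt 1 1 one_pos, tt (2 * ε) ρ hρ, tt (1 + 2 * ε * ‖w‖) r0 hr0, tt ‖l‖ ρ hρ,
        nhdsWithin_le_nhds (ball_mem_nhds (0 : ℂ) hρf), self_mem_nhdsWithin]
        with z z0 z1 z2 z4 z3 hz0
      have hz0' : z ≠ 0 := hz0
      have hzs : z • v ∈ φ.source := hinf z z3 v (mem_ball_self hρf)
      have hy : φ (z • v) ≠ 0 := fun h =>
        smul_ne_zero hz0' hv0 (φ.injOn hzs h0 (h.trans hφ0.symm))
      have hyp : 0 < ‖φ (z • v)‖ := norm_pos_iff.mpr hy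
      have hbig : ε * ‖φ (z • v)‖ ^ β⁻¹ / 2 ≤ ‖l (φ (z • v))‖ := by
        by_contra hlt
        obtain ⟨s, s1, s2, s3⟩ := key _ hy (by linarith) z1 z2 (not_le.mp hlt)
        have hb := φ.map_target s2
        have hb0 : f (φ.symm (φ (z • v) + s • w)) = 0 := (hV _ hb).mpr (by rwa [φ.right_inv s2])
        have hfar : dist (z • v) 0 ≤ ‖v‖ / ρf * dist (z • v) (φ.symm (φ (z • v) + s • w)) := by
          by_contra hnear
          push Not at hnear
          set b := φ.symm (φ (z • v) + s • w)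
          have hzp : 0 < ‖z‖ := norm_pos_iff.mpr hz0'
          have hm' : z⁻¹ • b ∈ ball v ρf := by
            have e : z⁻¹ • b - v = z⁻¹ • (b - z • v) := by
              rw [smul_sub, smul_smul, inv_mul_cancel₀ hz0', one_smul]
            rw [mem_ball, dist_eq_norm, e, norm_smul, norm_inv, inv_mul_lt_iff₀ hzp,
              ← dist_eq_norm, dist_comm]
            rw [dist_zero_right, norm_smul, div_mul_eq_mul_div, div_lt_iff₀ hρf] at hnear
            refine lt_of_mul_lt_mul_left ?_ hvp.le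
            linarith
          refine hfl.ne (x := (z, z⁻¹ • b)) ⟨⟨z3, hz0'⟩, hm'⟩ ?_
          simp only [smul_smul, mul_inv_cancel₀ hz0', one_smul, hb0, zero_div]
        have h1 := hW _ hzs _ hb hfar
        rw [φ.right_inv s2, dist_zero_right, dist_self_add_right, norm_smul] at h1
        have h2 : (‖s‖ * ‖w‖) ^ β ≤ (2 * ε * ‖w‖ * ‖φ (z • v)‖ ^ β⁻¹) ^ β :=
          Real.rpow_le_rpow (by positivity)
            (by linarith [mul_lt_mul_of_pos_right s1 hwp]) hβ.le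
        rw [Real.mul_rpow (x := 2 * ε * ‖w‖) (by positivity) (by positivity),
          Real.rpow_inv_rpow hyp.le hβ.ne'] at h2
        have h3 := mul_le_mul_of_nonneg_left h2 hH.le
        rw [← mul_assoc, hεβ] at h3
        linarith
      have hl1 : l (φ (z • v)) ≠ 0 := norm_pos_iff.mp (lt_of_lt_of_le (by positivity) hbig)
      have hp : 0 < ‖l (φ (z • v))‖ ^ β := Real.rpow_pos_of_pos (norm_pos_iff.mpr hl1) β
      have hp' : ((‖l (φ (z • v))‖ ^ β : ℝ) : ℂ) ≠ 0 := by exact_mod_cast hp.ne'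
      have c1 : ContinuousAt (fun z : ℂ => l (φ (z • v))) z :=
        l.continuous.continuousAt.comp (hφc z hzs)
      have c2 : ContinuousAt (fun z : ℂ => ((‖l (φ (z • v))‖ ^ β : ℝ) : ℂ)) z :=
        continuous_ofReal.continuousAt.comp
          ((Real.continuous_rpow_const hβ.le).continuousAt.comp c1.norm)
      refine ⟨c1, (c2.inv₀ hp').smul (hφc z hzs),
        ⟨⟨mem_ball_zero_iff.mpr ((l.le_opNorm _).trans_lt z4), hl1⟩, ?_⟩, ?_⟩
      · rw [mem_ball_zero_iff, norm_smul, norm_inv, Complex.norm_real, Real.norm_of_nonneg hp.le,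
          inv_mul_lt_iff₀ hp]
        have := hlowB _ _ hbig
        linarith [mul_pos (mul_pos hε0 hwp) hyp]
      · simp only [hG, map_smul, smul_eq_mul, smul_sub, smul_smul, mul_inv_cancel₀ hp',
          mul_inv_cancel_left₀ hp', one_smul]
        abel)

end Vale.Agent.P268
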