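import Vale.Agent.P268.Log

namespace Vale.Agent.P268

open Metric Set Filter Topology Complex

section

variable {E Q : Type*} [TopologicalSpace E] [NormedAddCommGroup Q] [NormedSpace ℝ Q]
  {f : E → ℂ} {p : E}

theorem box (Θ : OpenPartialHomeomorph E (ℂ × Q)) (hΘ : ∀ x, (Θ x).1 = f x) (hp : p ∈ Θ.source)
    (hf : f p = 0) {N : Set E} (hN : N ∈ 𝓝 p) :
    ∃ ρ > 0, ∀ y ∈ ball (0 : ℂ) ρ ×ˢ ball (Θ p).2 ρ,
      y ∈ Θ.target ∧ Θ.symm y ∈ N ∧ f (Θ.symm y) = y.1 := by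
  have h1 : Θ.symm ⁻¹' N ∈ 𝓝 (Θ p) :=
    (Θ.continuousAt_symm (Θ.map_source hp)).preimage_mem_nhds (by rwa [Θ.left_inv hp])
  obtain ⟨ρ, hρ, hs⟩ := Metric.mem_nhds_iff.mp
    (inter_mem (Θ.open_target.mem_nhds (Θ.map_source hp)) h1)
  refine ⟨ρ, hρ, fun y hy => ?_⟩
  have e : Θ p = (0, (Θ p).2) := Prod.ext (by rw [hΘ, hf]) rfl
  have hy' : y ∈ ball (Θ p) ρ := by
    rw [e, ← ball_prod_same]
    exact hy
  exact ⟨(hs hy').1, (hs hy').2, by rw [← hΘ, Θ.right_inv (hs hy').1]⟩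

theorem loc_wind (Θ : OpenPartialHomeomorph E (ℂ × Q)) (hΘ : ∀ x, (Θ x).1 = f x)
    (hp : p ∈ Θ.source) (hf : f p = 0) {N : Set E} (hN : N ∈ 𝓝 p) {F : E → ℂ}
    (hF : ContinuousOn F N) (h0 : ∀ x ∈ N, f x ≠ 0 → F x ≠ 0) :
    ∃ W ∈ 𝓝 p, ∃ k : ℤ, HL (fun x => F x / f x ^ k) (W \ {x | f x = 0}) := by
  obtain ⟨ρ, hρ, hb⟩ := box Θ hΘ hp hf hN
  have hsub : (ball (0 : ℂ) ρ \ {0}) ×ˢ ball (Θ p).2 ρ ⊆ ball (0 : ℂ) ρ ×ˢ ball (Θ p).2 ρ :=
    prod_mono sdiff_subset Subset.rfl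
  obtain ⟨k, hk⟩ := exists_wind (convex_ball (Θ p).2 ρ) isOpen_ball hρ
    (F := fun y => F (Θ.symm y))
    (hF.comp (Θ.continuousOn_symm.mono fun y hy => (hb y (hsub hy)).1)
      fun y hy => (hb y (hsub hy)).2.1)
    fun y hy => h0 _ (hb y (hsub hy)).2.1 (by rw [(hb y (hsub hy)).2.2]; exact hy.1.2)
  refine ⟨Θ.source ∩ Θ ⁻¹' (ball (0 : ℂ) ρ ×ˢ ball (Θ p).2 ρ), ?_, k, ?_⟩
  · refine inter_mem (Θ.open_source.mem_nhds hp) ((Θ.continuousAt hp).preimage_mem_nhds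
      ((isOpen_ball.prod isOpen_ball).mem_nhds ⟨?_, mem_ball_self hρ⟩))
    rw [hΘ, hf]
    exact mem_ball_self hρ
  · refine (hk.comp (u := Θ) (Θ.continuousOn.mono fun x hx => hx.1.1)
      fun x hx => ⟨⟨hx.1.2.1, ?_⟩, hx.1.2.2⟩).congr' fun x hx => ?_
    · rw [hΘ]
      exact hx.2
    · rw [Θ.left_inv hx.1.1, hΘ]

theorem loc_zero (Θ : OpenPartialHomeomorph E (ℂ × Q)) (hΘ : ∀ x, (Θ x).1 = f x)
    (hp : p ∈ Θ.source) (hf : f p = 0) {W : Set E} (hW : W ∈ 𝓝 p) {n : ℤ}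
    (h : HL (fun x => f x ^ n) (W \ {x | f x = 0})) : n = 0 := by
  obtain ⟨ρ, hρ, hb⟩ := box Θ hΘ hp hf hW
  have hm : ∀ z ∈ sphere (0 : ℂ) (ρ / 2), (z, (Θ p).2) ∈ ball (0 : ℂ) ρ ×ˢ ball (Θ p).2 ρ :=
    fun z hz => ⟨sphere_subset_ball (by linarith) hz, mem_ball_self hρ⟩
  refine eq_zero_of_HL_zpow (r := ρ / 2) (by positivity) ?_
  refine (h.comp (u := fun z : ℂ => Θ.symm (z, (Θ p).2))
    (Θ.continuousOn_symm.comp (by fun_prop) fun z hz => (hb _ (hm z hz)).1)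
    fun z hz => ⟨(hb _ (hm z hz)).2.1, ?_⟩).congr' fun z hz => ?_
  · rw [mem_ofPred_eq, (hb _ (hm z hz)).2.2]
    exact ne_of_mem_sphere hz (by positivity)
  · rw [(hb _ (hm z hz)).2.2]

end

theorem sign {E : Type*} [NormedAddCommGroup E] [NormedSpace ℂ E] [CompleteSpace E]
    {f g : E → ℂ} (φ : OpenPartialHomeomorph E E) (hf : AnalyticOnNhd ℂ f φ.source)
    (hg : AnalyticOnNhd ℂ g φ.target) (hV : ∀ x ∈ φ.source, f x = 0 ↔ g (φ x) = 0) {p : E}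
    (hp : p ∈ φ.source) (hp0 : f p = 0) (h1 : fderiv ℂ f p ≠ 0) (h2 : fderiv ℂ g (φ p) ≠ 0) :
    ∃ W ∈ 𝓝 p, ∃ σ : ℤ, (σ = 1 ∨ σ = -1) ∧
      HL (fun x => g (φ x) / f x ^ σ) (W \ {x | f x = 0}) := by
  have hsur : ∀ L : E →L[ℂ] ℂ, L ≠ 0 → L.range = ⊤ := by
    intro L hL
    obtain ⟨x, hx⟩ : ∃ x, L x ≠ 0 := by
      by_contra hcon
      push Not at hcon
      exact hL (ContinuousLinearMap.ext hcon)
    refine LinearMap.range_eq_top.mpr fun c => ⟨(c / L x) • x, ?_⟩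
    simp only [map_smul, ContinuousLinearMap.coe_coe, smul_eq_mul]
    field_simp
  have hp' := φ.map_source hp
  have sf := (hf p hp).hasStrictFDerivAt
  have sg := (hg _ hp').hasStrictFDerivAt
  obtain ⟨W, hW, k, hk⟩ := loc_wind (sf.implicitToOpenPartialHomeomorph f _ (hsur _ h1))
    (sf.implicitToOpenPartialHomeomorph_fst (hsur _ h1))
    (sf.mem_implicitToOpenPartialHomeomorph_source (hsur _ h1)) hp0 (φ.open_source.mem_nhds hp)
    (F := fun x => g (φ x)) (hg.continuousOn.comp φ.continuousOn fun x hx => φ.map_source hx)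
    fun x hx hx0 h => hx0 ((hV x hx).mpr h)
  obtain ⟨W', hW', j, hj⟩ := loc_wind (sg.implicitToOpenPartialHomeomorph g _ (hsur _ h2))
    (sg.implicitToOpenPartialHomeomorph_fst (hsur _ h2))
    (sg.mem_implicitToOpenPartialHomeomorph_source (hsur _ h2)) ((hV p hp).mp hp0)
    (φ.open_target.mem_nhds hp') (F := fun y => f (φ.symm y))
    (hf.continuousOn.comp φ.continuousOn_symm fun y hy => φ.map_target hy)
    fun y hy hy0 h => hy0 (by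
      have := (hV _ (φ.map_target hy)).mp h
      rwa [φ.right_inv hy] at this)
  have hW2 : W ∩ (φ.source ∩ φ ⁻¹' W') ∈ 𝓝 p := inter_mem hW
    (inter_mem (φ.open_source.mem_nhds hp) ((φ.continuousAt hp).preimage_mem_nhds hW'))
  have hz : 1 - k * j = 0 := by
    refine loc_zero (sf.implicitToOpenPartialHomeomorph f _ (hsur _ h1))
      (sf.implicitToOpenPartialHomeomorph_fst (hsur _ h1))
      (sf.mem_implicitToOpenPartialHomeomorph_source (hsur _ h1)) hp0 hW2 ?_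
    have a1 := hj.comp (u := φ) (t := (W ∩ (φ.source ∩ φ ⁻¹' W')) \ {x | f x = 0})
      (φ.continuousOn.mono fun x hx => hx.1.2.1)
      fun x hx => ⟨hx.1.2.2, fun h => hx.2 ((hV x hx.1.2.1).mpr h)⟩
    have a2 := (hk.mono (t := (W ∩ (φ.source ∩ φ ⁻¹' W')) \ {x | f x = 0})
      fun x hx => ⟨hx.1.1, hx.2⟩).zpow j
    refine (a1.mul a2).congr' fun x hx => ?_
    have b1 : f x ≠ 0 := hx.2
    have b2 : g (φ x) ≠ 0 := fun h => hx.2 ((hV x hx.1.2.1).mpr h)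
    rw [φ.left_inv hx.1.2.1, div_zpow, ← zpow_mul, zpow_sub₀ b1, zpow_one]
    field_simp
  exact ⟨W, hW, k, Int.eq_one_or_neg_one_of_mul_eq_one (v := j) (by linarith), hk⟩

end Vale.Agent.P268
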