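import Vale.Agent.P268.Line
import Vale.Agent.P268.Sign
import Vale.Agent.P268.Defs

namespace Vale.Agent.P268

open Metric Set Filter Topology Complex

variable {E : Type*} [NormedAddCommGroup E] [NormedSpace ℂ E]

theorem expand {g : E → ℂ} {U : Set E} (hU : IsOpen U) (h0 : (0 : E) ∈ U)
    (hg : AnalyticOnNhd ℂ g U) {n : ℕ} (h1 : ∀ k < n, iteratedFDeriv ℂ k g 0 = 0) {w : E}
    (hw : OffCone g n w) :
    ∃ ρ > 0, (∀ a ∈ ball (0 : ℂ) ρ, ∀ x ∈ ball w ρ, a • x ∈ U) ∧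
      HL (fun y : ℂ × E => g (y.1 • y.2) / y.1 ^ (n : ℤ)) ((ball 0 ρ \ {0}) ×ˢ ball w ρ) := by
  obtain ⟨p, r0, hp⟩ := hg 0 h0
  have hfac : ∀ k (u : E), (k.factorial : ℂ) * p k (fun _ => u) =
      iteratedFDeriv ℂ k g 0 (fun _ => u) := fun k u => by
    rw [← hp.factorial_smul u k, nsmul_eq_mul]
  set c : ℂ := p n (fun _ => w) with hc
  have hc0 : c ≠ 0 := fun h => hw (by rw [← hfac, ← hc, h, mul_zero])
  have hps : ∀ u : E, p.partialSum (n + 1) u = p n (fun _ => u) := by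
    intro u
    rw [FormalMultilinearSeries.partialSum, Finset.sum_range_succ, Finset.sum_eq_zero, zero_add]
    intro k hk
    have := hfac k u
    rw [h1 k (Finset.mem_range.mp hk)] at this
    exact (mul_eq_zero.mp this).resolve_left (by exact_mod_cast k.factorial_ne_zero)
  obtain ⟨C, hC⟩ := (hp.hasFPowerSeriesAt.isBigO_sub_partialSum_pow (n + 1)).bound
  have hsm : Tendsto (fun y : ℂ × E => y.1 • y.2) (𝓝 (0, w)) (𝓝 0) := by
    have : Continuous fun y : ℂ × E => y.1 • y.2 := by fun_prop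
    simpa using this.tendsto (0, w)
  have hPc : Continuous fun u : E => p n (fun _ => u) := (p n).cont.comp (by fun_prop)
  have hlt : ∀ᶠ y : ℂ × E in 𝓝 (0, w),
      C * (‖y.1‖ * ‖y.2‖ ^ (n + 1)) + ‖p n (fun _ => y.2) - c‖ < ‖c‖ := by
    refine ContinuousAt.eventually_lt (Continuous.continuousAt ?_) continuousAt_const ?_
    · exact (by fun_prop : Continuous fun y : ℂ × E => C * (‖y.1‖ * ‖y.2‖ ^ (n + 1))).add
        ((hPc.comp continuous_snd).sub continuous_const).norm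
    · simpa [hc] using hc0
  obtain ⟨ρ, hρ, hs⟩ := Metric.mem_nhds_iff.mp
    ((hsm.eventually (hC.and (hU.mem_nhds h0))).and hlt)
  rw [← ball_prod_same] at hs
  refine ⟨ρ, hρ, fun a ha x hx => (hs (mk_mem_prod ha hx)).1.2, ?_⟩
  have h2 : HL (fun y : ℂ × E => g (y.1 • y.2) / (c * y.1 ^ n))
      ((ball 0 ρ \ {0}) ×ˢ ball w ρ) := by
    refine HL.of_close (hg.continuousOn.comp (by fun_prop)
      fun y hy => (hs (mk_mem_prod hy.1.1 hy.2)).1.2) (by fun_prop) fun y hy => ?_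
    obtain ⟨⟨b1, -⟩, b2⟩ := hs (mk_mem_prod hy.1.1 hy.2)
    have ha : 0 < ‖y.1‖ ^ n := pow_pos (norm_pos_iff.mpr hy.1.2) n
    have e : p n (fun _ => y.1 • y.2) = y.1 ^ n * p n (fun _ => y.2) := by
      rw [(p n).map_smul_univ (fun _ => y.1) (fun _ => y.2)]
      simp
    simp only [zero_add, hps, e, norm_smul, mul_pow] at b1
    have e2 : g (y.1 • y.2) - c * y.1 ^ n = (g (y.1 • y.2) - y.1 ^ n * p n (fun _ => y.2)) +
        y.1 ^ n * (p n (fun _ => y.2) - c) := by ring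
    rw [e2]
    refine (norm_add_le _ _).trans_lt ?_
    rw [norm_mul, norm_mul, norm_pow]
    have := mul_lt_mul_of_pos_left b2 ha
    simp only at this
    rw [Real.norm_of_nonneg (by positivity), pow_succ ‖y.1‖] at b1
    nlinarith
  refine (h2.mul (HL.const hc0 _)).congr' fun y hy => ?_
  have : y.1 ≠ 0 := hy.1.2
  rw [zpow_natCast]
  field_simp

theorem near_line {w : E} (l : E →L[ℂ] ℂ) (hl : l w = 1) {δ : ℝ} (hδ : 0 < δ) :
    ∃ η > 0, ∀ (y : E) (t : ℂ), y ≠ 0 → ‖y - t • w‖ ≤ η * ‖y‖ →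
      l y ≠ 0 ∧ (l y)⁻¹ • y ∈ ball w δ := by
  set K : ℝ := 1 + ‖l‖ * ‖w‖ with hK
  have hK0 : 0 < K := by positivity
  set η : ℝ := min (1 / (2 * K)) (δ / (2 * K * (‖w‖ + 1))) with hη
  have hη0 : 0 < η := lt_min (by positivity) (by positivity)
  have k1 : K * η ≤ 1 / 2 := by
    have : η ≤ 1 / (2 * K) := min_le_left _ _
    rw [le_div_iff₀ (by positivity)] at this
    linarith
  have k2 : 2 * (K * η) * (‖w‖ + 1) ≤ δ := by
    have : η ≤ δ / (2 * K * (‖w‖ + 1)) := min_le_right _ _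
    rw [le_div_iff₀ (by positivity)] at this
    linarith
  refine ⟨η, hη0, fun y t hy h => ?_⟩
  have hy0 : 0 < ‖y‖ := norm_pos_iff.mpr hy
  have e : y - l y • w = (y - t • w) - l (y - t • w) • w := by
    rw [map_sub, map_smul, hl, smul_eq_mul, mul_one, sub_smul]
    abel
  have b1 : ‖y - l y • w‖ ≤ K * η * ‖y‖ := by
    rw [e]
    refine (norm_sub_le _ _).trans ?_
    rw [norm_smul]
    have c1 := l.le_opNorm (y - t • w)
    have c2 : ‖l (y - t • w)‖ * ‖w‖ ≤ ‖l‖ * (η * ‖y‖) * ‖w‖ := by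
      gcongr
      exact c1.trans (by gcongr)
    rw [hK]
    nlinarith
  have b2 : ‖y‖ ≤ 2 * (‖l y‖ * ‖w‖) := by
    have c1 : ‖y‖ ≤ ‖y - l y • w‖ + ‖l y • w‖ := by
      simpa using norm_add_le (y - l y • w) (l y • w)
    rw [norm_smul] at c1
    nlinarith
  have b3 : l y ≠ 0 := by
    intro h0
    rw [h0, norm_zero] at b2
    linarith
  refine ⟨b3, ?_⟩
  have hl0 : 0 < ‖l y‖ := norm_pos_iff.mpr b3
  have e2 : (l y)⁻¹ • y - w = (l y)⁻¹ • (y - l y • w) := by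
    rw [smul_sub, smul_smul, inv_mul_cancel₀ b3, one_smul]
  rw [mem_ball, dist_eq_norm, e2, norm_smul, norm_inv, inv_mul_lt_iff₀ hl0]
  have c3 : K * η * ‖y‖ ≤ K * η * (2 * (‖l y‖ * ‖w‖)) := by gcongr
  have c4 : 0 < K * η * ‖l y‖ := by positivity
  nlinarith

theorem dense_good (φ : OpenPartialHomeomorph E E) {f g : E → ℂ} [CompleteSpace E]
    (hf : AnalyticOnNhd ℂ f φ.source) (hV : ∀ x ∈ φ.source, f x = 0 ↔ g (φ x) = 0)
    (sf : GenSmooth f φ.source) (sg : GenSmooth g φ.target) {q : E} (hq : q ∈ φ.source)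
    (hq0 : f q = 0) :
    ∃ᶠ y in 𝓝 q, f y = 0 ∧ y ∈ φ.source ∧ fderiv ℂ f y ≠ 0 ∧ fderiv ℂ g (φ y) ≠ 0 := by
  rw [frequently_iff]
  intro N hN
  obtain ⟨q1, ⟨a1, a2⟩, a3, a4⟩ := ((sf q hq hq0).and_eventually
    ((eventually_mem_nhds_iff.mpr hN).and (φ.open_source.mem_nhds hq))).exists
  have b1 : ∀ᶠ y in 𝓝 q1, y ∈ N ∧ fderiv ℂ f y ≠ 0 :=
    Eventually.and a3 ((hf q1 a4).fderiv.continuousAt.eventually_ne a2)
  have b2 : Tendsto φ.symm (𝓝 (φ q1)) (𝓝 q1) := φ.tendsto_symm a4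
  obtain ⟨y, ⟨c1, c2⟩, ⟨c3, c4⟩, c5⟩ := ((sg _ (φ.map_source a4) ((hV q1 a4).mp a1)).and_eventually
    ((b2.eventually b1).and (φ.open_target.mem_nhds (φ.map_source a4)))).exists
  refine ⟨φ.symm y, c3, (hV _ (φ.map_target c5)).mpr ?_, φ.map_target c5, c4, ?_⟩
  · rwa [φ.right_inv c5]
  · rwa [φ.right_inv c5]

end Vale.Agent.P268
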