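import Vale.Agent.P268.Crit

namespace Vale.Agent.P268

open Metric Set Filter Topology Complex

variable {E : Type*} [NormedAddCommGroup E] [NormedSpace ℂ E]

theorem le_of_goodLine [CompleteSpace E] (φ : OpenPartialHomeomorph E E) {f g : E → ℂ}
    (h0 : (0 : E) ∈ φ.source) (hφ0 : φ 0 = 0) (hf : AnalyticOnNhd ℂ f φ.source)
    (hg : AnalyticOnNhd ℂ g φ.target) (hf0 : f 0 = 0)
    (hV : ∀ x ∈ φ.source, f x = 0 ↔ g (φ x) = 0)
    (sf : GenSmooth f φ.source) (sg : GenSmooth g φ.target) {m n : ℕ}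
    (hm : ∀ k < m, iteratedFDeriv ℂ k f 0 = 0) (hn : ∀ k < n, iteratedFDeriv ℂ k g 0 = 0)
    (hgood : GoodLine φ f m g n) : n ≤ m := by
  obtain ⟨v, hv, hc⟩ := hgood
  have h0' : (0 : E) ∈ φ.target := hφ0 ▸ φ.map_source h0
  have hg0 : g 0 = 0 := hφ0 ▸ (hV 0 h0).mp hf0
  obtain ⟨-, hv0⟩ := ne_zero_of_offCone hf0 hv
  have hsrc : ∀ᶠ z in 𝓝 (0 : ℂ), z • v ∈ φ.source := by
    have : Continuous fun z : ℂ => z • v := by fun_prop
    exact this.continuousAt.eventually (p := fun y => y ∈ φ.source)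
      (by simp only [zero_smul]; exact φ.open_source.mem_nhds h0)
  have hφc : ∀ z : ℂ, z • v ∈ φ.source → ContinuousAt (fun z : ℂ => φ (z • v)) z := fun z hz =>
    ContinuousAt.comp (f := fun z : ℂ => z • v) (φ.continuousAt hz) (by fun_prop)
  have hne : ∀ z : ℂ, z • v ∈ φ.source → z ≠ 0 → φ (z • v) ≠ 0 := fun z hz hz0 h =>
    smul_ne_zero hz0 hv0 (φ.injOn hz h0 (h.trans hφ0.symm))
  have hcone : ∀ (l : E →L[ℂ] ℂ) (O : Set E) (ρ : ℝ), Convex ℝ O → IsOpen O → 0 < ρ →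
      (∀ y ∈ (ball (0 : ℂ) ρ \ {0}) ×ˢ O, y.1 • y.2 ∈ φ.target) →
      HL (fun y : ℂ × E => g (y.1 • y.2) / y.1 ^ (n : ℤ)) ((ball 0 ρ \ {0}) ×ˢ O) →
      (∀ᶠ z in 𝓝[≠] (0 : ℂ), l (φ (z • v)) ≠ 0 ∧ (l (φ (z • v)))⁻¹ • φ (z • v) ∈ O) → n ≤ m := by
    intro l O ρ hO hOo hρ hin hgl hev
    have hca : ContinuousAt (fun z : ℂ => l (φ (z • v))) 0 :=
      l.continuous.continuousAt.comp (hφc 0 hsrc.self_of_nhds)
    have hb : ∀ᶠ z in 𝓝 (0 : ℂ), l (φ (z • v)) ∈ ball (0 : ℂ) ρ :=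
      hca.eventually (p := fun a => a ∈ ball (0 : ℂ) ρ)
        (by simp only [zero_smul, hφ0, map_zero]; exact ball_mem_nhds (0 : ℂ) hρ)
    obtain ⟨j, hj, h⟩ := crit φ h0 hf hg hf0 hV sf sg hm hv hO hOo hρ
      (G := fun y => y.1 • y.2) (by fun_prop) hin hgl (a := fun z => l (φ (z • v)))
      (x := fun z => (l (φ (z • v)))⁻¹ • φ (z • v)) (by
        filter_upwards [hev, nhdsWithin_le_nhds hsrc, nhdsWithin_le_nhds hb] with z h1 h2 h3
        have c1 : ContinuousAt (fun z : ℂ => l (φ (z • v))) z :=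
          l.continuous.continuousAt.comp (hφc z h2)
        refine ⟨c1, (c1.inv₀ h1.1).smul (hφc z h2), ⟨⟨h3, h1.1⟩, h1.2⟩, ?_⟩
        rw [smul_smul, mul_inv_cancel₀ h1.1, one_smul])
    exact le_of_abs hj le_rfl h
  rcases hc with ⟨w, hw, ht⟩ | ⟨l, C, hC, hCc, hCl, hev⟩ | ⟨γ, ψ, hγ, hγ0, hψ0, hev⟩
  · obtain ⟨-, hw0⟩ := ne_zero_of_offCone hg0 hw
    obtain ⟨ρ, hρ, hin, hgl⟩ := expand φ.open_target h0' hg hn hw
    obtain ⟨l, hl⟩ := SeparatingDual.exists_eq_one (R := ℂ) hw0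
    obtain ⟨η, hη, hnear⟩ := near_line l hl hρ
    refine hcone l _ ρ (convex_ball w ρ) isOpen_ball hρ (fun y hy => hin _ hy.1.1 _ hy.2) hgl ?_
    filter_upwards [nhdsWithin_le_nhds (ht η hη), nhdsWithin_le_nhds hsrc, self_mem_nhdsWithin]
      with z h1 h2 h3
    obtain ⟨t, ht'⟩ := h1
    exact hnear _ t (hne z h2 h3) ht'
  · obtain ⟨ρ, hρ, hin, hgl⟩ := expand_cone φ.open_target h0' hg hn hC hCc fun x hx => (hCl x hx).2
    refine hcone l _ ρ (hCc.thickening ρ) isOpen_thickening hρ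
      (fun y hy => hin y ⟨hy.1.1, hy.2⟩) hgl ?_
    filter_upwards [nhdsWithin_le_nhds hev, nhdsWithin_le_nhds hsrc, self_mem_nhdsWithin]
      with z h1 h2 h3
    obtain ⟨t, x, hx, e⟩ := h1
    have ht0 : t ≠ 0 := by
      rintro rfl
      exact hne z h2 h3 (by rw [e, zero_smul])
    have e2 : l (φ (z • v)) = t := by rw [e, map_smul, (hCl x hx).1, smul_eq_mul, mul_one]
    rw [e2, e, smul_smul, inv_mul_cancel₀ ht0, one_smul]
    exact ⟨ht0, self_subset_thickening hρ C hx⟩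
  · have hgγ : AnalyticAt ℂ (fun t => g (γ t)) 0 :=
      AnalyticAt.comp (f := γ) (by rw [hγ0]; exact hg 0 h0') hγ
    have hψt : Tendsto ψ (𝓝 0) (𝓝 0) := by simpa [hψ0] using hev.self_of_nhds.1.tendsto
    obtain ⟨ρf, hρf, -, hfl⟩ := expand φ.open_source h0 hf hm hv
    have hnz : ¬ ∀ᶠ t in 𝓝 (0 : ℂ), g (γ t) = 0 := by
      intro h
      obtain ⟨z, ⟨⟨⟨h1, h2⟩, h3⟩, h4⟩, h5⟩ := ((Eventually.filter_mono
        (nhdsWithin_le_nhds (s := {(0 : ℂ)}ᶜ)) ((((hψt.eventually h).and hev).and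
        hsrc).and (ball_mem_nhds (0 : ℂ) hρf))).and self_mem_nhdsWithin).exists
      have h6 : f (z • v) = 0 := (hV _ h3).mpr (by rw [h2.2]; exact h1)
      exact hfl.ne (x := (z, v)) ⟨⟨h4, h5⟩, mem_ball_self hρf⟩ (by simp only [h6, zero_div])
    obtain ⟨e, G, hG, hG0, hfac⟩ := hgγ.exists_eventuallyEq_pow_smul_nonzero_iff.mpr hnz
    have hen : n ≤ e := by
      by_contra hlt
      have hlt' : e < n := not_le.mp hlt
      obtain ⟨n', rfl⟩ : ∃ n', n = n' + 1 := ⟨n - 1, by omega⟩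
      obtain ⟨C, hC⟩ := taylor (hg 0 h0') (n := n') fun k hk => hn k (by omega)
      have hγt : Tendsto γ (𝓝 0) (𝓝 0) := by simpa [hγ0] using hγ.continuousAt.tendsto
      obtain ⟨D, hD⟩ := hγ.differentiableAt.isBigO_sub.bound
      have hb : ∀ᶠ t in 𝓝[≠] (0 : ℂ), ‖G t‖ ≤ |C| * D ^ (n' + 1) * ‖t‖ ^ (n' + 1 - e) := by
        filter_upwards [nhdsWithin_le_nhds (hγt.eventually hC), nhdsWithin_le_nhds hD,
          nhdsWithin_le_nhds hfac, self_mem_nhdsWithin] with t h1 h2 h3 h4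
        have ht : 0 < ‖t‖ ^ e := pow_pos (norm_pos_iff.mpr h4) e
        rw [hn n' (by omega), h3] at h1
        simp only [zero_apply, mul_zero, sub_zero, smul_eq_mul, norm_mul,
          norm_pow] at h1
        rw [hγ0, sub_zero, sub_zero] at h2
        have h5 : C * ‖γ t‖ ^ (n' + 1) ≤ |C| * (D * ‖t‖) ^ (n' + 1) :=
          mul_le_mul (le_abs_self C) (pow_le_pow_left₀ (norm_nonneg _) h2 _) (by positivity)
            (abs_nonneg C)
        have h6 : ‖t‖ ^ (n' + 1) = ‖t‖ ^ e * ‖t‖ ^ (n' + 1 - e) := by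
          rw [← pow_add]; congr 1; omega
        rw [mul_pow, h6] at h5
        refine le_of_mul_le_mul_left ?_ ht
        nlinarith
      have l1 : Tendsto (fun t => ‖G t‖) (𝓝[≠] (0 : ℂ)) (𝓝 ‖G 0‖) :=
        hG.continuousAt.norm.tendsto.mono_left nhdsWithin_le_nhds
      have l2 : Tendsto (fun t : ℂ => |C| * D ^ (n' + 1) * ‖t‖ ^ (n' + 1 - e)) (𝓝[≠] (0 : ℂ))
          (𝓝 (|C| * D ^ (n' + 1) * ‖(0 : ℂ)‖ ^ (n' + 1 - e))) :=
        (Continuous.tendsto (by fun_prop) _).mono_left nhdsWithin_le_nhds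
      have := le_of_tendsto_of_tendsto l1 l2 hb
      rw [norm_zero, zero_pow (by omega), mul_zero] at this
      exact hG0 (norm_le_zero_iff.mp this)
    have hγT : ∀ᶠ t in 𝓝 (0 : ℂ), γ t ∈ φ.target :=
      hγ.continuousAt.eventually (by rw [hγ0]; exact φ.open_target.mem_nhds h0')
    obtain ⟨δ, hδ, hs⟩ := Metric.mem_nhds_iff.mp ((hfac.and (hG.eventually_analyticAt.and
      (hG.continuousAt.eventually_ne hG0))).and (hγT.and hγ.eventually_analyticAt))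
    have hgl : HL (fun y : ℂ × E => g (γ y.1) / y.1 ^ (e : ℤ)) ((ball 0 δ \ {0}) ×ˢ univ) := by
      refine ((HL.of_convex (convex_ball (0 : ℂ) δ) isOpen_ball (F := G)
        (fun x hx => (hs hx).1.2.1.continuousAt.continuousWithinAt)
        fun x hx => (hs hx).1.2.2).comp (u := Prod.fst) continuousOn_fst
        fun y hy => hy.1.1).congr' fun y hy => ?_
      have : y.1 ≠ 0 := hy.1.2
      rw [(hs hy.1.1).1.1, sub_zero, smul_eq_mul, zpow_natCast]
      field_simp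
    obtain ⟨j, hj, h⟩ := crit φ h0 hf hg hf0 hV sf sg hm hv convex_univ isOpen_univ hδ
      (G := fun y => γ y.1) (fun y hy => (ContinuousAt.comp (f := Prod.fst)
        (hs hy.1.1).2.2.continuousAt continuousAt_fst).continuousWithinAt)
      (fun y hy => (hs hy.1.1).2.1) hgl (a := ψ) (x := fun _ => 0) (by
        filter_upwards [nhdsWithin_le_nhds hev, nhdsWithin_le_nhds hsrc,
          nhdsWithin_le_nhds (hψt.eventually (ball_mem_nhds (0 : ℂ) hδ)), self_mem_nhdsWithin]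
          with z h1 h2 h3 h4
        refine ⟨h1.1, continuousAt_const, ⟨⟨h3, fun h => hne z h2 h4 ?_⟩, mem_univ _⟩, h1.2.symm⟩
        rw [h1.2, show ψ z = 0 from h, hγ0])
    exact le_of_abs hj (by exact_mod_cast hen) h

end Vale.Agent.P268
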