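import Vale.Agent.P268.QDefs

/-! Bi-Hoelder maps and germs whose initial form is a power of a linear form. -/

namespace Vale.Agent.P268

variable {E : Type*} [NormedAddCommGroup E] [NormedSpace ℂ E]

/-- The homogeneous part of degree `m` of `f` is the power of a nonzero linear form. -/
def PowCone (f : E → ℂ) (m : ℕ) : Prop :=
  ∃ l : E →L[ℂ] ℂ, l ≠ 0 ∧ ∀ x, iteratedFDeriv ℂ m f 0 (fun _ => x) = l x ^ m

/-- The map and its inverse are Hoelder of exponent `α` on `U`. -/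
def BiHolder (φ : E → E) (U : Set E) (α : ℝ) : Prop :=
  ∃ H : ℝ, 0 < H ∧ ∀ x ∈ U, ∀ y ∈ U,
    dist (φ x) (φ y) ≤ H * dist x y ^ α ∧ dist x y ≤ H * dist (φ x) (φ y) ^ α

end Vale.Agent.P268
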