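import Vale.Agent.P268.QC
import Vale.Agent.P268.HDefs

namespace Vale.Agent.P268

open Metric Set Filter Topology Complex

variable {E : Type*} [NormedAddCommGroup E] [NormedSpace ℂ E]

theorem dom {g : E → ℂ} {U : Set E} (hU : IsOpen U) (h0 : (0 : E) ∈ U)
    (hg : AnalyticOnNhd ℂ g U) {n : ℕ} (h1 : ∀ k < n, iteratedFDeriv ℂ k g 0 = 0)
    {l : E →L[ℂ] ℂ} (hl : ∀ x, iteratedFDeriv ℂ n g 0 (fun _ => x) = l x ^ n) {β : ℝ}
    (hβ : 0 < β) (hn : (n : ℝ) < β * (n + 1)) {B : ℝ} (hB : 0 < B) :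
    ∃ ρ > 0, ρ ≤ 1 ∧ ∀ u : E, l u ≠ 0 → ‖l u‖ < ρ → ‖u‖ ≤ B * ‖l u‖ ^ β →
      u ∈ U ∧ ‖g u - (n.factorial : ℂ)⁻¹ * l u ^ n‖ < ‖(n.factorial : ℂ)⁻¹ * l u ^ n‖ := by
  obtain ⟨C, hC⟩ := taylor (hg 0 h0) h1
  obtain ⟨r0, hr0, hs⟩ := Metric.mem_nhds_iff.mp (hC.and (hU.mem_nhds h0))
  have hfac : (0 : ℝ) < (n.factorial : ℝ)⁻¹ := by positivity
  have ht : ∀ (c γ : ℝ), 0 < γ → Tendsto (fun τ : ℝ => c * τ ^ γ) (𝓝 0) (𝓝 0) := by
    intro c γ hγ
    have := ((Real.continuous_rpow_const hγ.le).tendsto 0).const_mul c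
    rwa [Real.zero_rpow hγ.ne', mul_zero] at this
  obtain ⟨ρ, hρ, hρs⟩ := Metric.mem_nhds_iff.mp
    (((ht B β hβ).eventually (gt_mem_nhds hr0)).and
      ((ht (|C| * B ^ (n + 1)) (β * (n + 1) - n) (by linarith)).eventually (gt_mem_nhds hfac)))
  refine ⟨min ρ 1, lt_min hρ one_pos, min_le_right _ _, fun u hu hu1 hu2 => ?_⟩
  have hτ : 0 < ‖l u‖ := norm_pos_iff.mpr hu
  obtain ⟨a1, a2⟩ := hρs (show ‖l u‖ ∈ ball (0 : ℝ) ρ by
    rw [mem_ball_zero_iff, norm_norm]; exact hu1.trans_le (min_le_left _ _))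
  obtain ⟨b1, b2⟩ := hs (show u ∈ ball (0 : E) r0 from mem_ball_zero_iff.mpr (hu2.trans_lt a1))
  refine ⟨b2, ?_⟩
  rw [hl] at b1
  have c1 : C * ‖u‖ ^ (n + 1) ≤ |C| * (B * ‖l u‖ ^ β) ^ (n + 1) :=
    mul_le_mul (le_abs_self C) (pow_le_pow_left₀ (norm_nonneg _) hu2 _) (by positivity)
      (abs_nonneg C)
  have c2 : (‖l u‖ ^ β) ^ (n + 1) = ‖l u‖ ^ (β * (n + 1) - n) * ‖l u‖ ^ n := by
    rw [← Real.rpow_natCast, ← Real.rpow_mul hτ.le, ← Real.rpow_natCast ‖l u‖ n,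
      ← Real.rpow_add hτ]
    push_cast
    ring_nf
  rw [mul_pow, c2] at c1
  rw [norm_mul, norm_inv, Complex.norm_natCast, norm_pow]
  have c3 := mul_lt_mul_of_pos_right a2 (pow_pos hτ n)
  nlinarith

theorem hold_le [CompleteSpace E] (φ : OpenPartialHomeomorph E E) {f g : E → ℂ}
    (h0 : (0 : E) ∈ φ.source) (hφ0 : φ 0 = 0) (hf : AnalyticOnNhd ℂ f φ.source)
    (hg : AnalyticOnNhd ℂ g φ.target) (hf0 : f 0 = 0)
    (hV : ∀ x ∈ φ.source, f x = 0 ↔ g (φ x) = 0)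
    (sf : GenSmooth f φ.source) (sg : GenSmooth g φ.target) {m n : ℕ}
    (hm : ∀ k < m, iteratedFDeriv ℂ k f 0 = 0) (hn : ∀ k < n, iteratedFDeriv ℂ k g 0 = 0)
    {v : E} (hv : OffCone f m v) (hc : PowCone g n) {β : ℝ} (hβ : 0 < β) (hβ1 : β ≤ 1)
    (hnβ : (n : ℝ) < β * (n + 1))
    (hq : ∀ t : ℝ, 0 < t → ∃ H : ℝ, 0 < H ∧ ∀ x ∈ φ.source, ∀ b ∈ φ.source,
      dist x 0 ≤ t * dist x b → dist (φ x) 0 ≤ H * dist (φ x) (φ b) ^ β) : n ≤ m := by
  obtain ⟨l, hl0, hl⟩ := hc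
  rcases Nat.eq_zero_or_pos n with rfl | hn0
  · exact Nat.zero_le _
  have h0' : (0 : E) ∈ φ.target := hφ0 ▸ φ.map_source h0
  obtain ⟨-, hv0⟩ := ne_zero_of_offCone hf0 hv
  obtain ⟨w, hw⟩ : ∃ w, l w = 1 := by
    obtain ⟨x, hx⟩ : ∃ x, l x ≠ 0 := by
      by_contra hcon
      push Not at hcon
      exact hl0 (ContinuousLinearMap.ext hcon)
    exact ⟨(l x)⁻¹ • x, by rw [map_smul, smul_eq_mul, inv_mul_cancel₀ hx]⟩
  have hwp : 0 < ‖w‖ := norm_pos_iff.mpr (by rintro rfl; simp at hw)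
  have hvp : 0 < ‖v‖ := norm_pos_iff.mpr hv0
  have hfac0 : (n.factorial : ℂ) ≠ 0 := by exact_mod_cast n.factorial_ne_zero
  have hfac : (n.factorial : ℂ)⁻¹ ≠ 0 := inv_ne_zero hfac0
  obtain ⟨ρf, hρf, hinf, hfl⟩ := expand φ.open_source h0 hf hm hv
  obtain ⟨H, hH, hW⟩ := hq (‖v‖ / ρf) (by positivity)
  set ε : ℝ := (1 / (2 * H)) ^ β⁻¹ / (2 * ‖w‖) with hε
  have hε0 : 0 < ε := by positivity
  have hεβ : H * (2 * ε * ‖w‖) ^ β = 1 / 2 := by
    have : 2 * ε * ‖w‖ = (1 / (2 * H)) ^ β⁻¹ := by rw [hε]; field_simp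
    rw [this, Real.rpow_inv_rpow (by positivity) hβ.ne']
    field_simp
  clear_value ε
  clear hε
  have hq0 : 0 < (ε / 2) ^ β := by positivity
  set B : ℝ := (1 + ε * ‖w‖) / (ε / 2) ^ β with hB
  have hB0 : 0 < B := by positivity
  set B2 : ℝ := ‖w‖ + (B + 1) * (1 + ‖l‖ * ‖w‖) with hB2
  have hBB : B ≤ B2 := by
    rw [hB2]
    nlinarith [mul_nonneg (norm_nonneg l) hwp.le]
  obtain ⟨ρ, hρ, hρ1, hd⟩ := dom φ.open_target h0' hg hn hl hβ hnβ (hB0.trans_le hBB)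
  obtain ⟨r0, hr0, hr0s⟩ := Metric.isOpen_iff.mp φ.open_target 0 h0'
  have hlowB : ∀ (y : E) (τ : ℝ), ε * ‖y‖ ^ β⁻¹ / 2 ≤ τ → (1 + ε * ‖w‖) * ‖y‖ ≤ B * τ ^ β := by
    intro y τ h
    have h1 : (ε / 2 * ‖y‖ ^ β⁻¹) ^ β ≤ τ ^ β :=
      Real.rpow_le_rpow (by positivity) (by linarith) hβ.le
    rw [Real.mul_rpow (by positivity) (by positivity),
      Real.rpow_inv_rpow (norm_nonneg _) hβ.ne'] at h1
    calc (1 + ε * ‖w‖) * ‖y‖ = B * ((ε / 2) ^ β * ‖y‖) := by rw [hB]; field_simp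
      _ ≤ B * τ ^ β := by gcongr
  clear_value B2 B
  have ea : ∀ (y : E) (s : ℂ), l (y + s • w) = l y + s := fun y s => by
    rw [map_add, map_smul, hw, smul_eq_mul, mul_one]
  have key : ∀ y : E, y ≠ 0 → ‖y‖ < 1 → 2 * ε * ‖y‖ < ρ → (1 + 2 * ε * ‖w‖) * ‖y‖ < r0 →
      ‖l y‖ < ε * ‖y‖ ^ β⁻¹ / 2 → ∃ s : ℂ, ‖s‖ < 2 * (ε * ‖y‖ ^ β⁻¹) ∧ y + s • w ∈ φ.target ∧
        g (y + s • w) = 0 := by
    intro y hy b0 b1 b2 b3
    have hyp : 0 < ‖y‖ := norm_pos_iff.mpr hy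
    have hσ : 0 < ε * ‖y‖ ^ β⁻¹ := by positivity
    have hσ1 : ε * ‖y‖ ^ β⁻¹ ≤ ε * ‖y‖ := by
      refine mul_le_mul_of_nonneg_left ?_ hε0.le
      have := Real.rpow_le_rpow_of_exponent_ge hyp b0.le ((one_le_inv₀ hβ).mpr hβ1)
      rwa [Real.rpow_one] at this
    set σ : ℝ := ε * ‖y‖ ^ β⁻¹ with hσd
    have hT : ∀ s ∈ ball (0 : ℂ) (2 * σ), y + s • w ∈ φ.target := by
      intro s hs
      refine hr0s (mem_ball_zero_iff.mpr ((norm_add_le _ _).trans_lt ?_))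
      rw [norm_smul]
      have := mul_lt_mul_of_pos_right (mem_ball_zero_iff.mp hs) hwp
      have e := mul_le_mul_of_nonneg_right hσ1 hwp.le
      linarith
    by_contra hcon
    push Not at hcon
    have c1 : HL (fun s : ℂ => g (y + s • w)) (ball 0 (2 * σ)) :=
      HL.of_convex (convex_ball _ _) isOpen_ball (hg.continuousOn.comp (by fun_prop) hT)
        fun s hs => hcon s (mem_ball_zero_iff.mp hs) (hT s hs)
    have hlow : ∀ s ∈ sphere (0 : ℂ) σ, σ / 2 < ‖l y + s‖ := by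
      intro s hs
      have h1 := mem_sphere_zero_iff_norm.mp hs
      have h2 : ‖s‖ ≤ ‖l y + s‖ + ‖l y‖ := by simpa using norm_sub_le (l y + s) (l y)
      linarith
    have hne : ∀ s ∈ sphere (0 : ℂ) σ, l y + s ≠ 0 := fun s hs =>
      norm_pos_iff.mp (lt_trans (by positivity) (hlow s hs))
    have hss : sphere (0 : ℂ) σ ⊆ ball 0 (2 * σ) := sphere_subset_ball (by linarith)
    have c2 : HL (fun s : ℂ => g (y + s • w) / ((n.factorial : ℂ)⁻¹ * (l y + s) ^ n))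
        (sphere 0 σ) := by
      refine HL.of_close (hg.continuousOn.comp (by fun_prop) fun s hs => hT s (hss hs))
        (by fun_prop) fun s hs => ?_
      have h1 := mem_sphere_zero_iff_norm.mp hs
      have h2 := hd (y + s • w) (by rw [ea]; exact hne s hs)
        (by rw [ea]; exact (norm_add_le _ _).trans_lt (by linarith)) (by
          rw [ea]
          refine (norm_add_le _ _).trans ?_
          rw [norm_smul, h1]
          have h3 := hlowB y _ (hlow s hs).le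
          have h4 : B * ‖l y + s‖ ^ β ≤ B2 * ‖l y + s‖ ^ β := by gcongr
          have e := mul_le_mul_of_nonneg_right hσ1 hwp.le
          linarith)
      rw [ea] at h2
      exact h2.2
    have c3 : HL (fun s : ℂ => (l y + s) / s) (sphere 0 σ) :=
      HL.of_close (F := fun s => l y + s) (G := fun s => s) (by fun_prop) (by fun_prop)
        fun s hs => by
          rw [mem_sphere_zero_iff_norm.mp hs, add_sub_cancel_right]
          linarith
    have c1' := c1.mono hss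
    have c4 : HL (fun s : ℂ => s ^ (n : ℤ)) (sphere 0 σ) := by
      refine (c1'.mul ((c2.mul (c3.zpow n)).mul (HL.const hfac _)).inv).congr' fun s hs => ?_
      have d1 := c1'.ne hs
      have d2 := hne s hs
      have d3 : s ≠ 0 := ne_of_mem_sphere hs hσ.ne'
      simp only [zpow_natCast, div_pow]
      field_simp
    exact hn0.ne' (by exact_mod_cast eq_zero_of_HL_zpow hσ c4)
  set G : ℂ × E → E := fun y => y.1 • w + ((‖y.1‖ ^ β : ℝ) : ℂ) • (y.2 - l y.2 • w) with hG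
  have hGc : Continuous G := by
    have : Continuous fun y : ℂ × E => ((‖y.1‖ ^ β : ℝ) : ℂ) :=
      continuous_ofReal.comp ((Real.continuous_rpow_const hβ.le).comp (by fun_prop))
    exact Continuous.add (by fun_prop) (this.smul (by fun_prop))
  have hGl : ∀ y, l (G y) = y.1 := fun y => by
    simp only [hG, map_add, map_smul, map_sub, hw, smul_eq_mul, mul_one, sub_self, mul_zero,
      add_zero]
  have hGd : ∀ y ∈ (ball (0 : ℂ) ρ \ {0}) ×ˢ ball (0 : E) (B + 1), G y ∈ φ.target ∧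
      ‖g (G y) - (n.factorial : ℂ)⁻¹ * y.1 ^ n‖ < ‖(n.factorial : ℂ)⁻¹ * y.1 ^ n‖ := by
    intro y hy
    have a0 : ‖y.1‖ < ρ := mem_ball_zero_iff.mp hy.1.1
    have a1 : ‖y.2‖ < B + 1 := mem_ball_zero_iff.mp hy.2
    have a2 : 0 < ‖y.1‖ := norm_pos_iff.mpr hy.1.2
    have h := hd (G y) (by rw [hGl]; exact hy.1.2) (by rw [hGl]; exact a0) (by
      rw [hGl]
      refine (norm_add_le _ _).trans ?_
      rw [norm_smul, norm_smul, Complex.norm_real, Real.norm_of_nonneg (by positivity)]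
      have e1 : ‖y.1‖ ≤ ‖y.1‖ ^ β := by
        have := Real.rpow_le_rpow_of_exponent_ge a2 (by linarith) hβ1
        rwa [Real.rpow_one] at this
      have e2 : ‖y.2 - l y.2 • w‖ ≤ (B + 1) * (1 + ‖l‖ * ‖w‖) := by
        refine (norm_sub_le _ _).trans ?_
        rw [norm_smul]
        have e3 : ‖l y.2‖ * ‖w‖ ≤ ‖l‖ * (B + 1) * ‖w‖ := by
          gcongr
          exact (l.le_opNorm _).trans (by gcongr)
        linarith
      have e4 := mul_le_mul_of_nonneg_left e2 (show 0 ≤ ‖y.1‖ ^ β by positivity)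
      have e5 := mul_le_mul_of_nonneg_right e1 hwp.le
      rw [hB2]
      linarith)
    rwa [hGl] at h
  have hgl : HL (fun y : ℂ × E => g (G y) / y.1 ^ (n : ℤ))
      ((ball (0 : ℂ) ρ \ {0}) ×ˢ ball (0 : E) (B + 1)) := by
    refine ((HL.of_close (F := fun y => g (G y)) (G := fun y => (n.factorial : ℂ)⁻¹ * y.1 ^ n)
      (hg.continuousOn.comp hGc.continuousOn fun y hy => (hGd y hy).1) (by fun_prop)
      fun y hy => (hGd y hy).2).mul (HL.const hfac _)).congr' fun y hy => ?_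
    have : y.1 ≠ 0 := hy.1.2
    rw [zpow_natCast]
    field_simp
  have hφc : ∀ z : ℂ, z • v ∈ φ.source → ContinuousAt (fun z : ℂ => φ (z • v)) z := fun z hz =>
    ContinuousAt.comp (f := fun z : ℂ => z • v) (φ.continuousAt hz) (by fun_prop)
  have hca : Tendsto (fun z : ℂ => ‖φ (z • v)‖) (𝓝 0) (𝓝 0) := by
    simpa [hφ0] using (hφc 0 (by rw [zero_smul]; exact h0)).norm.tendsto
  have tt : ∀ c d : ℝ, 0 < d → ∀ᶠ z in 𝓝[≠] (0 : ℂ), c * ‖φ (z • v)‖ < d := fun c d hd' =>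
    nhdsWithin_le_nhds ((by simpa using hca.const_mul c :
      Tendsto (fun z : ℂ => c * ‖φ (z • v)‖) (𝓝 0) (𝓝 0)).eventually (gt_mem_nhds hd'))
  obtain ⟨j, hj, h⟩ := crit φ h0 hf hg hf0 hV sf sg hm hv (convex_ball 0 (B + 1)) isOpen_ball hρ
    hGc.continuousOn (fun y hy => (hGd y hy).1) hgl (a := fun z => l (φ (z • v)))
    (x := fun z => ((‖l (φ (z • v))‖ ^ β : ℝ) : ℂ)⁻¹ • φ (z • v)) (by
      filter_upwards [tt 1 1 one_pos, tt (2 * ε) ρ hρ, tt (1 + 2 * ε * ‖w‖) r0 hr0, tt ‖l‖ ρ hρ,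
        nhdsWithin_le_nhds (ball_mem_nhds (0 : ℂ) hρf), self_mem_nhdsWithin]
        with z z0 z1 z2 z4 z3 hz0
      have hz0' : z ≠ 0 := hz0
      have hzs : z • v ∈ φ.source := hinf z z3 v (mem_ball_self hρf)
      have hy : φ (z • v) ≠ 0 := fun h =>
        smul_ne_zero hz0' hv0 (φ.injOn hzs h0 (h.trans hφ0.symm))
      have hyp : 0 < ‖φ (z • v)‖ := norm_pos_iff.mpr hy
      have hbig : ε * ‖φ (z • v)‖ ^ β⁻¹ / 2 ≤ ‖l (φ (z • v))‖ := by
        by_contra hlt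
        obtain ⟨s, s1, s2, s3⟩ := key _ hy (by linarith) z1 z2 (not_le.mp hlt)
        have hb := φ.map_target s2
        have hb0 : f (φ.symm (φ (z • v) + s • w)) = 0 := (hV _ hb).mpr (by rwa [φ.right_inv s2])
        have hfar : dist (z • v) 0 ≤ ‖v‖ / ρf * dist (z • v) (φ.symm (φ (z • v) + s • w)) := by
          by_contra hnear
          push Not at hnear
          set b := φ.symm (φ (z • v) + s • w)
          have hzp : 0 < ‖z‖ := norm_pos_iff.mpr hz0'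
          have hm' : z⁻¹ • b ∈ ball v ρf := by
            have e : z⁻¹ • b - v = z⁻¹ • (b - z • v) := by
              rw [smul_sub, smul_smul, inv_mul_cancel₀ hz0', one_smul]
            rw [mem_ball, dist_eq_norm, e, norm_smul, norm_inv, inv_mul_lt_iff₀ hzp,
              ← dist_eq_norm, dist_comm]
            rw [dist_zero_right, norm_smul, div_mul_eq_mul_div, div_lt_iff₀ hρf] at hnear
            refine lt_of_mul_lt_mul_left ?_ hvp.le
            linarith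
          refine hfl.ne (x := (z, z⁻¹ • b)) ⟨⟨z3, hz0'⟩, hm'⟩ ?_
          simp only [smul_smul, mul_inv_cancel₀ hz0', one_smul, hb0, zero_div]
        have h1 := hW _ hzs _ hb hfar
        rw [φ.right_inv s2, dist_zero_right, dist_self_add_right, norm_smul] at h1
        have h2 : (‖s‖ * ‖w‖) ^ β ≤ (2 * ε * ‖w‖ * ‖φ (z • v)‖ ^ β⁻¹) ^ β :=
          Real.rpow_le_rpow (by positivity)
            (by linarith [mul_lt_mul_of_pos_right s1 hwp]) hβ.le
        rw [Real.mul_rpow (x := 2 * ε * ‖w‖) (by positivity) (by positivity),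
          Real.rpow_inv_rpow hyp.le hβ.ne'] at h2
        have h3 := mul_le_mul_of_nonneg_left h2 hH.le
        rw [← mul_assoc, hεβ] at h3
        linarith
      have hl1 : l (φ (z • v)) ≠ 0 := norm_pos_iff.mp (lt_of_lt_of_le (by positivity) hbig)
      have hp : 0 < ‖l (φ (z • v))‖ ^ β := Real.rpow_pos_of_pos (norm_pos_iff.mpr hl1) β
      have hp' : ((‖l (φ (z • v))‖ ^ β : ℝ) : ℂ) ≠ 0 := by exact_mod_cast hp.ne'
      have c1 : ContinuousAt (fun z : ℂ => l (φ (z • v))) z :=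
        l.continuous.continuousAt.comp (hφc z hzs)
      have c2 : ContinuousAt (fun z : ℂ => ((‖l (φ (z • v))‖ ^ β : ℝ) : ℂ)) z :=
        continuous_ofReal.continuousAt.comp
          ((Real.continuous_rpow_const hβ.le).continuousAt.comp c1.norm)
      refine ⟨c1, (c2.inv₀ hp').smul (hφc z hzs),
        ⟨⟨mem_ball_zero_iff.mpr ((l.le_opNorm _).trans_lt z4), hl1⟩, ?_⟩, ?_⟩
      · rw [mem_ball_zero_iff, norm_smul, norm_inv, Complex.norm_real, Real.norm_of_nonneg hp.le,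
          inv_mul_lt_iff₀ hp]
        have := hlowB _ _ hbig
        linarith [mul_pos (mul_pos hε0 hwp) hyp]
      · simp only [hG, map_smul, smul_eq_mul, smul_sub, smul_smul, mul_inv_cancel₀ hp',
          mul_inv_cancel_left₀ hp', one_smul]
        abel)
  exact le_of_abs hj le_rfl h

theorem hq_of_holder {φ : E → E} {U : Set E} (h0 : (0 : E) ∈ U) (hφ0 : φ 0 = 0) {α H : ℝ}
    (hα : 0 < α) (hH : 0 < H) (h : ∀ x ∈ U, ∀ y ∈ U,
      dist (φ x) (φ y) ≤ H * dist x y ^ α ∧ dist x y ≤ H * dist (φ x) (φ y) ^ α)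
    (t : ℝ) (ht : 0 < t) : ∃ H' : ℝ, 0 < H' ∧ ∀ x ∈ U, ∀ b ∈ U,
      dist x 0 ≤ t * dist x b → dist (φ x) 0 ≤ H' * dist (φ x) (φ b) ^ (α ^ 2) := by
  refine ⟨H * (t * H) ^ α, by positivity, fun x hx b hb hd => ?_⟩
  have h1 := (h x hx 0 h0).1
  rw [hφ0] at h1
  have h2 : dist x 0 ≤ t * H * dist (φ x) (φ b) ^ α := by
    rw [mul_assoc]
    exact hd.trans (mul_le_mul_of_nonneg_left (h x hx b hb).2 ht.le)
  have h3 := Real.rpow_le_rpow dist_nonneg h2 hα.le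
  rw [Real.mul_rpow (by positivity) (by positivity), ← Real.rpow_mul dist_nonneg, ← sq] at h3
  rw [mul_assoc]
  exact h1.trans (mul_le_mul_of_nonneg_left h3 hH.le)

end Vale.Agent.P268
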