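import Vale.Agent.P268.Count

namespace Vale.Agent.P268

open Metric Set Filter Topology Complex

variable {E : Type*} [NormedAddCommGroup E] [NormedSpace ℂ E]

theorem tube {U : Set E} (hU : IsOpen U) {K : Set ℂ} (hK : IsCompact K) {a v : E}
    (h : ∀ z ∈ K, a + z • v ∈ U) : ∀ᶠ b in 𝓝 a, ∀ z ∈ K, b + z • v ∈ U := by
  refine hK.eventually_forall_of_forall_eventually fun z hz => ?_
  have hc : Continuous fun y : E × ℂ => y.1 + y.2 • v := by fun_prop
  exact hc.continuousAt.eventually (hU.mem_nhds (h z hz))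

theorem rouche_ev {U : Set E} (hU : IsOpen U) {G : E → ℂ} (hG : ContinuousOn G U) {K : Set ℂ}
    (hK : IsCompact K) {a v : E} (h : ∀ z ∈ K, a + z • v ∈ U ∧ G (a + z • v) ≠ 0) :
    ∀ᶠ b in 𝓝 a, HL (fun z : ℂ => G (b + z • v) / G (a + z • v)) K := by
  have h1 : ∀ᶠ b in 𝓝 a, ∀ z ∈ K, ‖G (b + z • v) - G (a + z • v)‖ < ‖G (a + z • v)‖ := by
    refine hK.eventually_forall_of_forall_eventually fun z hz => ?_
    have hGa : ContinuousAt G (a + z • v) := hG.continuousAt (hU.mem_nhds (h z hz).1)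
    have c1 : ContinuousAt (fun y : E × ℂ => G (y.1 + y.2 • v)) (a, z) :=
      ContinuousAt.comp (f := fun y : E × ℂ => y.1 + y.2 • v) hGa (by fun_prop)
    have c2 : ContinuousAt (fun y : E × ℂ => G (a + y.2 • v)) (a, z) :=
      ContinuousAt.comp (f := fun y : E × ℂ => a + y.2 • v) hGa (by fun_prop)
    refine ContinuousAt.eventually_lt (c1.sub c2).norm c2.norm ?_
    simpa using (h z hz).2
  filter_upwards [h1, tube hU hK fun z hz => (h z hz).1] with b hb hb'
  exact HL.of_close (hG.comp (by fun_prop) hb') (hG.comp (by fun_prop) fun z hz => (h z hz).1) hb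

theorem persist {U : Set E} (hU : IsOpen U) {f : E → ℂ} (hf : AnalyticOnNhd ℂ f U) {a v : E}
    {z : ℂ} (hz : a + z • v ∈ U) (h0 : f (a + z • v) = 0)
    (hn : ¬ ∀ᶠ x in 𝓝 z, f (a + x • v) = 0) {δ : ℝ} (hδ : 0 < δ) :
    ∀ᶠ b in 𝓝 a, ∃ x ∈ ball z δ, f (b + x • v) = 0 := by
  have han : AnalyticAt ℂ (fun x : ℂ => f (a + x • v)) z :=
    AnalyticAt.comp (f := fun x : ℂ => a + x • v) (hf _ hz) (by fun_prop)
  obtain ⟨e, he, δ1, hδ1, h1⟩ := analytic_local han h0 hn
  have hc : Continuous fun x : ℂ => a + x • v := by fun_prop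
  obtain ⟨δ2, hδ2, h2⟩ := Metric.mem_nhds_iff.mp (inter_mem (inter_mem (ball_mem_nhds z hδ)
    (ball_mem_nhds z hδ1)) (hc.continuousAt.preimage_mem_nhds (hU.mem_nhds hz)))
  have s1 : closedBall z (δ2 / 2) ⊆ ball z δ2 := closedBall_subset_ball (by linarith)
  have s2 : sphere z (δ2 / 4) ⊆ ball z (δ2 / 2) := sphere_subset_ball (by linarith)
  have s3 : sphere z (δ2 / 4) ⊆ ball z δ1 \ {z} := fun x hx =>
    ⟨(h2 (s1 (ball_subset_closedBall (s2 hx)))).1.2, ne_of_mem_sphere hx (by positivity)⟩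
  filter_upwards [tube hU (isCompact_closedBall z (δ2 / 2)) fun x hx => (h2 (s1 hx)).2,
    rouche_ev hU hf.continuousOn (isCompact_sphere z (δ2 / 4)) (a := a) (v := v) fun x hx =>
      ⟨(h2 (s1 (ball_subset_closedBall (s2 hx)))).2,
        fun h => h1.ne (s3 hx) (by simp only [h, zero_div])⟩] with b hb1 hb2
  by_contra hcon
  push Not at hcon
  have h3 : HL (fun x : ℂ => f (b + x • v)) (ball z (δ2 / 2)) :=
    HL.of_convex (convex_ball _ _) isOpen_ball
      (hf.continuousOn.comp (by fun_prop) fun x hx => hb1 x (ball_subset_closedBall hx))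
      fun x hx => hcon x (h2 (s1 (ball_subset_closedBall hx))).1.1
  have h4 : HL (fun x : ℂ => (x - z) ^ e) (sphere z (δ2 / 4)) := by
    refine ((h3.mono s2).mul (hb2.mul (h1.mono s3)).inv).congr' fun x hx => ?_
    have b1 := h3.ne (s2 hx)
    have b2 : f (a + x • v) ≠ 0 := fun h => h1.ne (s3 hx) (by simp only [h, zero_div])
    have b3 : (x - z) ^ e ≠ 0 := zpow_ne_zero _ (sub_ne_zero.mpr (s3 hx).2)
    field_simp
  have h5 := eq_zero_of_HL_zpow (k := e) (r := δ2 / 4) (by positivity)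
    ((h4.comp (u := fun y : ℂ => y + z) (by fun_prop) fun y hy => by simpa using hy).congr'
      fun y _ => by simp)
  omega

theorem good_line {U Gd N : Set E} (hU : IsOpen U) (hGd : IsOpen Gd) (hN : IsOpen N)
    (hne : N.Nonempty) {f : E → ℂ} (hf : AnalyticOnNhd ℂ f U) {v : E} {R r : ℝ} (hr : 0 < r)
    (hrR : r < R) {m : ℤ} (hin : ∀ b ∈ N, ∀ x ∈ ball (0 : ℂ) R, b + x • v ∈ U)
    (hz : ∀ b ∈ N, ∀ x ∈ ball (0 : ℂ) R, f (b + x • v) = 0 → ‖x‖ < r)
    (hm : ∀ b ∈ N, HL (fun x : ℂ => f (b + x • v) / x ^ m) (sphere 0 r))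
    (hd : ∀ q ∈ U, f q = 0 → ∃ᶠ y in 𝓝 q, f y = 0 ∧ y ∈ Gd) :
    ∃ b ∈ N, ∀ x ∈ ball (0 : ℂ) R, f (b + x • v) = 0 → b + x • v ∈ Gd := by
  classical
  have han : ∀ b ∈ N, AnalyticOnNhd ℂ (fun x : ℂ => f (b + x • v)) (ball 0 R) := fun b hb x hx =>
    AnalyticAt.comp (f := fun x : ℂ => b + x • v) (hf _ (hin b hb x hx)) (by fun_prop)
  by_contra hcon
  push Not at hcon
  have hP : ∀ n : ℕ, ∃ b ∈ N, ∃ T : Finset ℂ, T.card = n ∧
      ∀ x ∈ T, (x ∈ ball (0 : ℂ) R ∧ f (b + x • v) = 0) ∧ b + x • v ∈ Gd := by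
    intro n
    induction n with
    | zero =>
      obtain ⟨b, hb⟩ := hne
      exact ⟨b, hb, ∅, rfl, by simp⟩
    | succ n ih =>
      obtain ⟨a, ha, T, hT, hTs⟩ := ih
      obtain ⟨q, hq, hq0, hqb⟩ := hcon a ha
      have hqT : q ∉ T := fun h => hqb (hTs q h).2
      have hsm : ∀ c : ℝ, 0 < c → ∀ᶠ δ in 𝓝[>] (0 : ℝ), 2 * δ < c := fun c hc =>
        nhdsWithin_le_nhds (ContinuousAt.eventually_lt (f := fun δ : ℝ => 2 * δ)
          (g := fun _ => c) (by fun_prop) (by fun_prop) (by simpa using hc))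
      have e1 : ∀ᶠ δ in 𝓝[>] (0 : ℝ), ∀ x ∈ insert q T, ∀ y ∈ insert q T, x ≠ y →
          2 * δ < dist x y := by
        refine (eventually_all_finset _).mpr fun x _ => (eventually_all_finset _).mpr fun y _ => ?_
        by_cases hxy : x = y
        · exact Eventually.of_forall fun _ h => absurd hxy h
        · exact (hsm _ (dist_pos.mpr hxy)).mono fun _ h _ => h
      have e2 : ∀ᶠ δ in 𝓝[>] (0 : ℝ), ∀ x ∈ T, ∀ y ∈ closedBall x δ,
          y ∈ ball (0 : ℂ) R ∧ a + y • v ∈ Gd := by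
        refine (eventually_all_finset _).mpr fun x hx => ?_
        have hc : Continuous fun y : ℂ => a + y • v := by fun_prop
        obtain ⟨c, hc0, hcs⟩ := Metric.mem_nhds_iff.mp (inter_mem
          (isOpen_ball.mem_nhds (hTs x hx).1.1)
          (hc.continuousAt.preimage_mem_nhds (hGd.mem_nhds (hTs x hx).2)))
        filter_upwards [hsm c hc0, self_mem_nhdsWithin] with δ h1 h2 y hy
        exact hcs (closedBall_subset_ball (by have : 0 < δ := h2; linarith) hy)
      obtain ⟨δ, ⟨d1, d2⟩, hδ⟩ := ((e1.and e2).and self_mem_nhdsWithin).exists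
      have hδ0 : 0 < δ := hδ
      have e3 : ∀ᶠ b in 𝓝 a, b ∈ N ∧ ∀ x ∈ T, (∃ y ∈ ball x δ, f (b + y • v) = 0) ∧
          ∀ y ∈ closedBall x δ, b + y • v ∈ Gd := by
        refine Eventually.and (hN.mem_nhds ha) ((eventually_all_finset _).mpr fun x hx => ?_)
        exact (persist hU hf (hin a ha x (hTs x hx).1.1) (hTs x hx).1.2
          (not_ev_zero hr hrR (han a ha) (hz a ha) (hTs x hx).1.1) hδ0).and
          (tube hGd (isCompact_closedBall x δ) fun y hy => (d2 x hx y hy).2)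
      have hc : Tendsto (fun y : E => y - q • v) (𝓝 (a + q • v)) (𝓝 a) := by
        have : Continuous fun y : E => y - q • v := by fun_prop
        simpa using this.tendsto (a + q • v)
      obtain ⟨y, ⟨hy0, hyG⟩, hyN, hy⟩ :=
        ((hd _ (hin a ha q hq) hq0).and_eventually (hc.eventually e3)).exists
      have hs : ∀ x, ∃ s, x ∈ T → s ∈ ball x δ ∧ f (y - q • v + s • v) = 0 := by
        intro x
        by_cases hx : x ∈ T
        · obtain ⟨s, hs⟩ := (hy x hx).1
          exact ⟨s, fun _ => hs⟩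
        · exact ⟨0, fun h => absurd h hx⟩
      choose s hs using hs
      refine ⟨y - q • v, hyN, insert q (T.image s), ?_, fun x hx => ?_⟩
      · rw [Finset.card_insert_of_notMem, Finset.card_image_of_injOn, hT]
        · intro x hx x' hx' hxx
          by_contra hne'
          have h1 := d1 x (Finset.mem_insert_of_mem hx) x' (Finset.mem_insert_of_mem hx') hne'
          have h2 : dist (s x) x < δ := (hs x hx).1
          have h3 : dist (s x') x' < δ := (hs x' hx').1
          rw [hxx] at h2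
          linarith [dist_triangle_left x x' (s x')]
        · intro hmem
          obtain ⟨x, hx, hxq⟩ := Finset.mem_image.mp hmem
          have h1 := d1 q (Finset.mem_insert_self _ _) x (Finset.mem_insert_of_mem hx)
            (fun h => hqT (h ▸ hx))
          have h2 : dist (s x) x < δ := (hs x hx).1
          rw [hxq] at h2
          linarith
      · rcases Finset.mem_insert.mp hx with rfl | hx
        · rw [sub_add_cancel]
          exact ⟨⟨hq, hy0⟩, hyG⟩
        · obtain ⟨x', hx', rfl⟩ := Finset.mem_image.mp hx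
          have h1 := ball_subset_closedBall (hs x' hx').1
          exact ⟨⟨(d2 x' hx' _ h1).1, (hs x' hx').2⟩, (hy x' hx').2 _ h1⟩
  obtain ⟨b, hb, T, hT, hTs⟩ := hP (m.toNat + 1)
  have := disc_card hr hrR (han b hb) (hz b hb) (hm b hb) T fun x hx => (hTs x hx).1
  omega

end Vale.Agent.P268
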