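import Mathlib

namespace Vale.Agent.P268

open Metric Set Filter Topology Complex

/-- `F` has a continuous logarithm on `s`. -/
def HL {X : Type*} [TopologicalSpace X] (F : X → ℂ) (s : Set X) : Prop :=
  ∃ l : X → ℂ, ContinuousOn l s ∧ ∀ x ∈ s, exp (l x) = F x

section basic

variable {X Y : Type*} [TopologicalSpace X] [TopologicalSpace Y] {F G : X → ℂ} {s t : Set X}

theorem HL.mono (h : HL F s) (hts : t ⊆ s) : HL F t := by
  obtain ⟨l, h1, h2⟩ := h
  exact ⟨l, h1.mono hts, fun x hx => h2 x (hts hx)⟩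

theorem HL.congr' (h : HL F s) (he : ∀ x ∈ s, F x = G x) : HL G s := by
  obtain ⟨l, h1, h2⟩ := h
  exact ⟨l, h1, fun x hx => (h2 x hx).trans (he x hx)⟩

theorem HL.mul (h : HL F s) (h' : HL G s) : HL (fun x => F x * G x) s := by
  obtain ⟨l, h1, h2⟩ := h
  obtain ⟨l', h1', h2'⟩ := h'
  exact ⟨fun x => l x + l' x, h1.add h1', fun x hx => by rw [exp_add, h2 x hx, h2' x hx]⟩

theorem HL.zpow (h : HL F s) (k : ℤ) : HL (fun x => F x ^ k) s := by
  obtain ⟨l, h1, h2⟩ := h
  exact ⟨fun x => k * l x, continuousOn_const.mul h1, fun x hx => by rw [exp_int_mul, h2 x hx]⟩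

theorem HL.inv (h : HL F s) : HL (fun x => (F x)⁻¹) s :=
  (h.zpow (-1)).congr' fun x _ => by simp

theorem HL.comp (h : HL F s) {u : Y → X} {t : Set Y} (hu : ContinuousOn u t) (hm : MapsTo u t s) :
    HL (fun y => F (u y)) t := by
  obtain ⟨l, h1, h2⟩ := h
  exact ⟨fun y => l (u y), h1.comp hu hm, fun y hy => h2 _ (hm hy)⟩

theorem HL.ne (h : HL F s) {x : X} (hx : x ∈ s) : F x ≠ 0 := by
  obtain ⟨l, -, h2⟩ := h
  rw [← h2 x hx]
  exact exp_ne_zero _

theorem HL.const {c : ℂ} (hc : c ≠ 0) (s : Set X) : HL (fun _ => c) s :=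
  ⟨fun _ => log c, continuousOn_const, fun _ _ => exp_log hc⟩

theorem HL.prod {ι : Type*} (Z : Finset ι) (F : ι → X → ℂ) (h : ∀ i ∈ Z, HL (F i) s) :
    HL (fun x => ∏ i ∈ Z, F i x) s := by
  classical
  induction Z using Finset.induction_on with
  | empty => simpa using HL.const one_ne_zero s
  | insert a Z ha ih =>
    refine ((h a (Finset.mem_insert_self _ _)).mul
      (ih fun i hi => h i (Finset.mem_insert_of_mem hi))).congr' fun x _ => ?_
    rw [Finset.prod_insert ha]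

theorem HL.of_close (hF : ContinuousOn F s) (hG : ContinuousOn G s)
    (h : ∀ x ∈ s, ‖F x - G x‖ < ‖G x‖) : HL (fun x => F x / G x) s := by
  have hG0 : ∀ x ∈ s, G x ≠ 0 := fun x hx =>
    norm_pos_iff.mp ((norm_nonneg _).trans_lt (h x hx))
  have hsl : ∀ x ∈ s, F x / G x ∈ slitPlane := by
    intro x hx
    have e : F x / G x = 1 + (F x - G x) / G x := by field_simp [hG0 x hx]; ring
    rw [e]
    refine mem_slitPlane_of_norm_lt_one ?_
    rw [norm_div, div_lt_one (norm_pos_iff.mpr (hG0 x hx))]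
    exact h x hx
  exact ⟨fun x => log (F x / G x), (hF.div hG hG0).clog hsl,
    fun x hx => exp_log (slitPlane_ne_zero (hsl x hx))⟩

theorem const_of_exp {ψ : X → ℂ} (hs : IsPreconnected s) (hc : ContinuousOn ψ s)
    (h : ∀ x ∈ s, exp (ψ x) = 1) {a b : X} (ha : a ∈ s) (hb : b ∈ s) : ψ a = ψ b :=
  Complex.isCoveringMap_exp.constOn_of_comp hs hc
    (fun x hx y hy => Subtype.ext ((h x hx).trans (h y hy).symm)) ha hb

end basic

theorem HL.of_convex {Q : Type*} [NormedAddCommGroup Q] [NormedSpace ℝ Q] {s : Set Q}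
    (hs : Convex ℝ s) (ho : IsOpen s) {F : Q → ℂ} (hF : ContinuousOn F s)
    (h0 : ∀ x ∈ s, F x ≠ 0) : HL F s := by
  rcases s.eq_empty_or_nonempty with rfl | hne
  · exact ⟨0, continuousOn_empty _, fun x hx => hx.elim⟩
  have := hs.contractibleSpace hne
  have hsc : IsSimplyConnected s := SimplyConnectedSpace.ofContractible s
  obtain ⟨l, h1, h2⟩ := exists_continuousOn_eqOn_exp_comp hsc ho hF
    (by rintro ⟨x, hx, hx0⟩; exact h0 x hx hx0)
  exact ⟨l, h1, fun x hx => h2 hx⟩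

theorem eq_zero_of_HL_zpow {k : ℤ} {r : ℝ} (hr : 0 < r)
    (h : HL (fun z : ℂ => z ^ k) (sphere 0 r)) : k = 0 := by
  obtain ⟨l, h1, h2⟩ := h
  set u : ℝ → ℂ := fun θ => exp (Real.log r + θ * I) with hu
  have huc : Continuous u := by fun_prop
  have hum : ∀ θ, u θ ∈ sphere (0 : ℂ) r := by
    intro θ
    simp [hu, Complex.norm_exp, Real.exp_log hr]
  have hc : ContinuousOn (fun θ : ℝ => l (u θ) - k * (Real.log r + θ * I)) univ :=
    (h1.comp huc.continuousOn fun θ _ => hum θ).sub (by fun_prop)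
  have h3 := const_of_exp isPreconnected_univ hc (fun θ _ => by
    rw [exp_sub, h2 _ (hum θ), exp_int_mul]
    exact div_self (zpow_ne_zero _ (exp_ne_zero _))) (mem_univ 0) (mem_univ (2 * Real.pi))
  have h4 : u (2 * Real.pi) = u 0 := by
    simp only [hu]
    rw [exp_add, exp_add]
    push_cast
    rw [exp_two_pi_mul_I]
    simp
  simp only [h4] at h3
  have h5 : (k : ℂ) * (2 * Real.pi * I) = 0 := by
    push_cast at h3
    linear_combination h3
  rcases mul_eq_zero.mp h5 with h6 | h6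
  · exact_mod_cast h6
  · exact absurd h6 two_pi_I_ne_zero

theorem wind_unique {F : ℂ → ℂ} {k j : ℤ} {r : ℝ} (hr : 0 < r)
    (h1 : HL (fun z => F z / z ^ k) (sphere 0 r)) (h2 : HL (fun z => F z / z ^ j) (sphere 0 r)) :
    k = j := by
  have h3 : HL (fun z : ℂ => z ^ (j - k)) (sphere 0 r) := by
    refine (h1.mul h2.inv).congr' fun z hz => ?_
    have hz0 : z ≠ 0 := ne_of_mem_sphere hz hr.ne'
    have hF : F z ≠ 0 := fun h => h1.ne hz (by rw [h, zero_div])
    rw [zpow_sub₀ hz0]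
    field_simp
  have := eq_zero_of_HL_zpow hr h3
  omega

theorem exists_wind {Q : Type*} [NormedAddCommGroup Q] [NormedSpace ℝ Q] {C : Set Q}
    (hC : Convex ℝ C) (hCo : IsOpen C) {ρ : ℝ} (hρ : 0 < ρ) {F : ℂ × Q → ℂ}
    (hF : ContinuousOn F ((ball 0 ρ \ {0}) ×ˢ C)) (h0 : ∀ x ∈ (ball (0 : ℂ) ρ \ {0}) ×ˢ C, F x ≠ 0) :
    ∃ k : ℤ, HL (fun x => F x / x.1 ^ k) ((ball 0 ρ \ {0}) ×ˢ C) := by
  rcases C.eq_empty_or_nonempty with rfl | ⟨q0, hq0⟩
  · exact ⟨0, 0, by simp, by simp⟩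
  set H : Set (ℂ × Q) := {s : ℂ | s.re < Real.log ρ} ×ˢ C with hH
  have hHc : Convex ℝ H := (convex_halfSpace_re_lt _).prod hC
  have hHo : IsOpen H := (isOpen_lt continuous_re continuous_const).prod hCo
  have hmap : MapsTo (fun x : ℂ × Q => (exp x.1, x.2)) H ((ball 0 ρ \ {0}) ×ˢ C) := by
    intro x hx
    refine ⟨⟨?_, exp_ne_zero _⟩, hx.2⟩
    rw [mem_ball_zero_iff, Complex.norm_exp, ← Real.exp_log hρ]
    exact Real.exp_lt_exp.mpr hx.1
  obtain ⟨l, hl1, hl2⟩ := HL.of_convex hHc hHo (F := fun x => F (exp x.1, x.2))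
    (hF.comp (by fun_prop) hmap) fun x hx => h0 _ (hmap hx)
  have hshift : ∀ n : ℤ, MapsTo (fun x : ℂ × Q => (x.1 + n * (2 * Real.pi * I), x.2)) H H := by
    intro n x hx
    refine ⟨?_, hx.2⟩
    have := hx.1
    simpa using this
  have hsh1 : MapsTo (fun x : ℂ × Q => (x.1 + 2 * Real.pi * I, x.2)) H H := by
    simpa using hshift 1
  have hdc : ContinuousOn (fun x : ℂ × Q => l (x.1 + 2 * Real.pi * I, x.2) - l x) H :=
    (hl1.comp (by fun_prop) hsh1).sub hl1
  have hde : ∀ x ∈ H, exp (l (x.1 + 2 * Real.pi * I, x.2) - l x) = 1 := by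
    intro x hx
    rw [exp_sub, hl2 _ (hsh1 hx), hl2 x hx]
    simp only [exp_add, exp_two_pi_mul_I, mul_one]
    exact div_self (h0 _ (hmap hx))
  have hx0 : (((Real.log ρ - 1 : ℝ) : ℂ), q0) ∈ H := ⟨by simp, hq0⟩
  obtain ⟨k, hk⟩ := exp_eq_one_iff.mp (hde _ hx0)
  have hstep : ∀ x ∈ H, l (x.1 + 2 * Real.pi * I, x.2) = l x + k * (2 * Real.pi * I) := by
    intro x hx
    have := const_of_exp hHc.isPreconnected hdc hde hx hx0
    rw [hk] at this
    linear_combination this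
  set m : ℂ × Q → ℂ := fun x => l x - k * x.1 with hm
  have hmc : ContinuousOn m H := hl1.sub (by fun_prop)
  have hper : ∀ n : ℤ, ∀ x ∈ H, m (x.1 + n * (2 * Real.pi * I), x.2) = m x := by
    intro n x hx
    induction n using Int.induction_on with
    | zero => simp
    | succ n ih =>
      have h1 := hstep _ (hshift n hx)
      simp only [hm] at ih h1 ⊢
      push_cast at ih h1 ⊢
      rw [show x.1 + (n + 1) * (2 * Real.pi * I) = x.1 + n * (2 * Real.pi * I) + 2 * Real.pi * I by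
        ring, h1]
      linear_combination ih
    | pred n ih =>
      have h1 := hstep _ (hshift (-n - 1) hx)
      simp only [hm] at ih h1 ⊢
      push_cast at ih h1 ⊢
      rw [show x.1 + (-n - 1) * (2 * Real.pi * I) + 2 * Real.pi * I =
        x.1 + -n * (2 * Real.pi * I) by ring] at h1
      linear_combination ih - h1
  have hlogH : ∀ x ∈ (ball (0 : ℂ) ρ \ {0}) ×ˢ C, ∀ s : ℂ, exp s = x.1 → (s, x.2) ∈ H := by
    intro x hx s hs
    refine ⟨?_, hx.2⟩
    have h1 : ‖x.1‖ < ρ := mem_ball_zero_iff.mp hx.1.1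
    rw [← hs, Complex.norm_exp, ← Real.exp_log hρ] at h1
    exact Real.exp_lt_exp.mp h1
  refine ⟨k, fun x => m (log x.1, x.2), fun x hx => ?_, fun x hx => ?_⟩
  · have hx1 : x.1 ≠ 0 := hx.1.2
    set s0 : ℂ := log x.1 with hs0
    have hev : ∀ y ∈ (ball (0 : ℂ) ρ \ {0}) ×ˢ C,
        m (log y.1, y.2) = m (s0 + log (y.1 / x.1), y.2) := by
      intro y hy
      have hy1 : y.1 ≠ 0 := hy.1.2
      have he : exp (s0 + log (y.1 / x.1)) = exp (log y.1) := by
        rw [exp_add, hs0, exp_log hx1, exp_log (div_ne_zero hy1 hx1), exp_log hy1]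
        field_simp
      obtain ⟨n, hn⟩ := exp_eq_exp_iff_exists_int.mp he
      rw [hn]
      exact (hper n _ (hlogH y hy _ (exp_log hy1))).symm
    refine ContinuousWithinAt.congr ?_ hev (hev x hx)
    have hca : ContinuousAt (fun y : ℂ × Q => (s0 + log (y.1 / x.1), y.2)) x := by
      refine ContinuousAt.prodMk (continuousAt_const.add (ContinuousAt.clog (by fun_prop) ?_))
        continuousAt_snd
      rw [div_self hx1]
      exact one_mem_slitPlane
    have hin : (s0 + log (x.1 / x.1), x.2) ∈ H := by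
      refine hlogH x hx _ ?_
      rw [div_self hx1, log_one, add_zero, hs0, exp_log hx1]
    exact (ContinuousAt.comp (f := fun y : ℂ × Q => (s0 + log (y.1 / x.1), y.2))
      (hmc.continuousAt (hHo.mem_nhds hin)) hca).continuousWithinAt
  · have hx1 : x.1 ≠ 0 := hx.1.2
    simp only [hm]
    rw [exp_sub, hl2 _ (hlogH x hx _ (exp_log hx1)), exp_int_mul, exp_log hx1]
    simp only [exp_log hx1]

end Vale.Agent.P268
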