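import Vale.Agent.P268.Exp

namespace Vale.Agent.P268

open Metric Set Filter Topology Complex

variable {E : Type*} [NormedAddCommGroup E] [NormedSpace ℂ E]

theorem ne_zero_of_offCone {f : E → ℂ} {m : ℕ} {v : E} (h0 : f 0 = 0) (hv : OffCone f m v) :
    m ≠ 0 ∧ v ≠ 0 := by
  have hm : m ≠ 0 := by
    rintro rfl
    exact hv (by simpa using h0)
  refine ⟨hm, ?_⟩
  rintro rfl
  exact hv ((iteratedFDeriv ℂ m f 0).map_coord_zero ⟨0, Nat.pos_of_ne_zero hm⟩ rfl)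

theorem core [CompleteSpace E] (φ : OpenPartialHomeomorph E E) {f g : E → ℂ}
    (hf : AnalyticOnNhd ℂ f φ.source) (hg : AnalyticOnNhd ℂ g φ.target)
    (hV : ∀ x ∈ φ.source, f x = 0 ↔ g (φ x) = 0)
    (sf : GenSmooth f φ.source) (sg : GenSmooth g φ.target) {m : ℕ} {k : ℤ} {v : E} {R1 : ℝ}
    (hR1 : 0 < R1) (hsrc : ∀ z ∈ ball (0 : ℂ) R1, z • v ∈ φ.source)
    (A2 : HL (fun z : ℂ => g (φ (z • v)) / z ^ k) (ball 0 R1 \ {0}))
    (A3 : HL (fun z : ℂ => f (z • v) / z ^ (m : ℤ)) (ball 0 R1 \ {0})) :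
    |k| ≤ m ∧ 2 ∣ (m : ℤ) - k := by
  have hr : 0 < R1 / 4 := by positivity
  have hrR : R1 / 4 < R1 / 2 := by linarith
  have hsph : sphere (0 : ℂ) (R1 / 4) ⊆ ball 0 R1 \ {0} := fun z hz =>
    ⟨sphere_subset_ball (by linarith) hz, ne_of_mem_sphere hz hr.ne'⟩
  have hfne : ∀ z ∈ ball (0 : ℂ) R1 \ {0}, f (z • v) ≠ 0 := fun z hz h =>
    A3.ne hz (by simp only [h, zero_div])
  have hcb : closedBall (0 : ℂ) (R1 / 2) ⊆ ball 0 R1 := closedBall_subset_ball (by linarith)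
  have hHc : ContinuousOn (fun x => g (φ x)) φ.source :=
    hg.continuousOn.comp φ.continuousOn fun x hx => φ.map_source hx
  have hO : IsOpen (φ.source ∩ f ⁻¹' {0}ᶜ) :=
    hf.continuousOn.isOpen_inter_preimage φ.open_source isOpen_compl_singleton
  have E1 := tube (a := (0 : E)) (v := v) φ.open_source (isCompact_closedBall (0 : ℂ) (R1 / 2))
    fun z hz => by rw [zero_add]; exact hsrc z (hcb hz)
  have E2 := tube (a := (0 : E)) (v := v) hO
    ((isCompact_closedBall (0 : ℂ) (R1 / 2)).diff (isOpen_ball (x := (0 : ℂ)) (ε := R1 / 4)))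
    fun z hz => by
      rw [zero_add]
      refine ⟨hsrc z (hcb hz.1), hfne z ⟨hcb hz.1, ?_⟩⟩
      rintro rfl
      exact hz.2 (mem_ball_self hr)
  have E3 := rouche_ev (a := (0 : E)) (v := v) φ.open_source hf.continuousOn
    (isCompact_sphere (0 : ℂ) (R1 / 4)) fun z hz => by
      rw [zero_add]; exact ⟨hsrc z (hsph hz).1, hfne z (hsph hz)⟩
  have E4 := rouche_ev (a := (0 : E)) (v := v) φ.open_source hHc
    (isCompact_sphere (0 : ℂ) (R1 / 4)) fun z hz => by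
      rw [zero_add]
      exact ⟨hsrc z (hsph hz).1, fun h => hfne z (hsph hz) ((hV _ (hsrc z (hsph hz).1)).mpr h)⟩
  obtain ⟨N, hNs, hNo, hN0⟩ := _root_.mem_nhds_iff.mp ((E1.and E2).and (E3.and E4))
  have hinN : ∀ b ∈ N, ∀ x ∈ ball (0 : ℂ) (R1 / 2), b + x • v ∈ φ.source := fun b hb x hx =>
    (hNs hb).1.1 x (ball_subset_closedBall hx)
  have hzN : ∀ b ∈ N, ∀ x ∈ ball (0 : ℂ) (R1 / 2), f (b + x • v) = 0 → ‖x‖ < R1 / 4 := by
    intro b hb x hx h
    by_contra hlt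
    exact ((hNs hb).1.2 x ⟨ball_subset_closedBall hx,
      fun h' => hlt (mem_ball_zero_iff.mp h')⟩).2 h
  have hmN : ∀ b ∈ N, HL (fun x : ℂ => f (b + x • v) / x ^ (m : ℤ)) (sphere 0 (R1 / 4)) := by
    intro b hb
    refine ((hNs hb).2.1.mul (A3.mono hsph)).congr' fun z hz => ?_
    have := hfne z (hsph hz)
    rw [zero_add]
    field_simp
  have hGo : IsOpen {y | y ∈ φ.source ∧ fderiv ℂ f y ≠ 0 ∧ fderiv ℂ g (φ y) ≠ 0} := by
    refine isOpen_iff_mem_nhds.mpr fun y hy => ?_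
    exact Eventually.and (φ.open_source.mem_nhds hy.1)
      (((hf y hy.1).fderiv.continuousAt.eventually_ne hy.2.1).and
        ((ContinuousAt.comp (f := φ) (hg _ (φ.map_source hy.1)).fderiv.continuousAt
          (φ.continuousAt hy.1)).eventually_ne hy.2.2))
  obtain ⟨b, hb, hbG⟩ := good_line φ.open_source hGo hNo ⟨0, hN0⟩ hf hr hrR hinN hzN hmN
    fun q hq hq0 => dense_good φ hf hV sf sg hq hq0
  refine disc_sign hr hrR (F := fun x : ℂ => f (b + x • v)) (H := fun x : ℂ => g (φ (b + x • v)))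
    (fun x hx => AnalyticAt.comp (f := fun x : ℂ => b + x • v) (hf _ (hinN b hb x hx))
      (by fun_prop)) (hzN b hb) (hmN b hb) (hHc.comp (by fun_prop) (hinN b hb))
    (fun x hx h => (hV _ (hinN b hb x hx)).mpr h) ?_ fun z hz hz0 => ?_
  · refine ((hNs hb).2.2.mul (A2.mono hsph)).congr' fun z hz => ?_
    have : g (φ (z • v)) ≠ 0 := fun h => hfne z (hsph hz) ((hV _ (hsrc z (hsph hz).1)).mpr h)
    rw [zero_add]
    field_simp
  · obtain ⟨c1, c2, c3⟩ := hbG z hz hz0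
    obtain ⟨W, hW, σ, hσ, hh⟩ := sign φ hf hg hV c1 hz0 c2 c3
    have hc : Continuous fun x : ℂ => b + x • v := by fun_prop
    exact ⟨_, hc.continuousAt.preimage_mem_nhds hW, σ, hσ,
      hh.comp hc.continuousOn fun x hx => hx⟩

end Vale.Agent.P268
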