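import Vale.Agent.P268.Defs

/-! Quasisymmetric maps and germs whose tangent cone is a hyperplane. -/

namespace Vale.Agent.P268

open Filter Topology

variable {E : Type*} [NormedAddCommGroup E] [NormedSpace ℂ E]

/-- The order of `f` at the origin is `m`: the derivatives of order less than `m` vanish and the
homogeneous part of degree `m` does not vanish identically. -/
def IsOrd (f : E → ℂ) (m : ℕ) : Prop :=
  (∀ k < m, iteratedFDeriv ℂ k f 0 = 0) ∧ ∃ v, OffCone f m v

/-- The zero set of the homogeneous part of degree `m` of `f` is a complex hyperplane. -/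
def HypCone (f : E → ℂ) (m : ℕ) : Prop :=
  ∃ l : E →L[ℂ] ℂ, l ≠ 0 ∧ ∀ x, OffCone f m x ↔ l x ≠ 0

/-- Quasisymmetry on `U` with a distortion function tending to zero at zero. -/
def QS (φ : E → E) (U : Set E) : Prop :=
  ∃ η : ℝ → ℝ, Tendsto η (𝓝[>] 0) (𝓝 0) ∧ ∀ x ∈ U, ∀ a ∈ U, ∀ b ∈ U, ∀ t : ℝ, 0 < t →
    dist x a ≤ t * dist x b → dist (φ x) (φ a) ≤ η t * dist (φ x) (φ b)

end Vale.Agent.P268
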