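import Vale.Agent.P268.Fin
import Vale.Agent.P268.QDefs

namespace Vale.Agent.P268

open Metric Set Filter Topology Complex

variable {E : Type*} [NormedAddCommGroup E] [NormedSpace ℂ E]

/-- The weak form of quasisymmetry at the origin that is used. -/
def WQ (φ : E → E) (U : Set E) : Prop :=
  ∀ t : ℝ, 0 < t → ∃ H : ℝ, 0 < H ∧ ∀ x ∈ U, ∀ b ∈ U, dist x 0 ≤ t * dist x b →
    dist (φ x) 0 ≤ H * dist (φ x) (φ b)

theorem wq_of_qs (φ : OpenPartialHomeomorph E E) (h0 : (0 : E) ∈ φ.source) (hφ0 : φ 0 = 0)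
    (h : QS φ φ.source) : WQ φ φ.source ∧ WQ φ.symm φ.target := by
  obtain ⟨η, hη, hq⟩ := h
  refine ⟨fun t ht => ⟨max (η t) 1, by positivity, fun x hx b hb hd => ?_⟩, fun t ht => ?_⟩
  · have := hq x hx 0 h0 b hb t ht hd
    rw [hφ0] at this
    exact this.trans (mul_le_mul_of_nonneg_right (le_max_left _ _) dist_nonneg)
  · obtain ⟨s, hs1, hs⟩ := ((hη.eventually (gt_mem_nhds (inv_pos.mpr ht))).and
      self_mem_nhdsWithin).exists
    have hs0 : 0 < s := hs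
    refine ⟨s⁻¹, by positivity, fun x hx b hb hd => ?_⟩
    by_contra hlt
    push Not at hlt
    rw [inv_mul_lt_iff₀ hs0] at hlt
    have h1 := hq _ (φ.map_target hx) _ (φ.map_target hb) 0 h0 s hs0 hlt.le
    rw [φ.right_inv hx, φ.right_inv hb, hφ0] at h1
    have hx0 : 0 < dist x 0 := by
      refine dist_pos.mpr ?_
      rintro rfl
      have e : φ.symm 0 = 0 := by
        have := φ.left_inv h0
        rwa [hφ0] at this
      rw [e, dist_self, mul_zero] at hlt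
      exact absurd hlt (not_lt.mpr dist_nonneg)
    have h2 : η s * dist x 0 < t⁻¹ * dist x 0 := mul_lt_mul_of_pos_right hs1 hx0
    have h3 : t⁻¹ * dist x 0 ≤ dist x b := by rw [inv_mul_le_iff₀ ht]; exact hd
    linarith

theorem inCone_of_wq [FiniteDimensional ℂ E] (φ : OpenPartialHomeomorph E E) {f g : E → ℂ}
    (h0 : (0 : E) ∈ φ.source) (hφ0 : φ 0 = 0) (hf : AnalyticOnNhd ℂ f φ.source)
    (hg : AnalyticOnNhd ℂ g φ.target) (hf0 : f 0 = 0)
    (hV : ∀ x ∈ φ.source, f x = 0 ↔ g (φ x) = 0) {m n : ℕ}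
    (hm : ∀ k < m, iteratedFDeriv ℂ k f 0 = 0) (hn : ∀ k < n, iteratedFDeriv ℂ k g 0 = 0)
    {v : E} (hv : OffCone f m v) (hc : HypCone g n) (hq : WQ φ φ.source) : InCone φ v g n := by
  have := FiniteDimensional.proper ℂ E
  obtain ⟨l, hl0, hl⟩ := hc
  have h0' : (0 : E) ∈ φ.target := hφ0 ▸ φ.map_source h0
  have hg0 : g 0 = 0 := hφ0 ▸ (hV 0 h0).mp hf0
  obtain ⟨-, hv0⟩ := ne_zero_of_offCone hf0 hv
  obtain ⟨w, hw⟩ : ∃ w, l w = 1 := by
    obtain ⟨x, hx⟩ : ∃ x, l x ≠ 0 := by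
      by_contra hcon
      push Not at hcon
      exact hl0 (ContinuousLinearMap.ext hcon)
    exact ⟨(l x)⁻¹ • x, by rw [map_smul, smul_eq_mul, inv_mul_cancel₀ hx]⟩
  obtain ⟨hn0, hw0⟩ := ne_zero_of_offCone hg0 ((hl w).mpr (by rw [hw]; exact one_ne_zero))
  have hwp : 0 < ‖w‖ := norm_pos_iff.mpr hw0
  have hvp : 0 < ‖v‖ := norm_pos_iff.mpr hv0
  obtain ⟨ρf, hρf, hinf, hfl⟩ := expand φ.open_source h0 hf hm hv
  obtain ⟨H, hH, hW⟩ := hq (‖v‖ / ρf) (by positivity)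
  set ε : ℝ := 1 / (2 * H * ‖w‖) with hε
  have hε0 : 0 < ε := by positivity
  set B : ℝ := 2 * (1 + ε * ‖w‖) / ε with hB
  set K : Set E := {x | l x = 1} ∩ closedBall 0 B with hK
  have hKc : IsCompact K := (isCompact_closedBall 0 B).inter_left
    (isClosed_eq l.continuous continuous_const)
  have hKv : Convex ℝ K := by
    refine Convex.inter ?_ (convex_closedBall _ _)
    intro x hx y hy a b _ _ hab
    have e1 : l x = 1 := hx
    have e2 : l y = 1 := hy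
    show l (a • x + b • y) = 1
    rw [map_add, l.map_smul_of_tower, l.map_smul_of_tower, e1, e2, ← add_smul, hab, one_smul]
  have hKo : ∀ x ∈ K, l x = 1 ∧ OffCone g n x := fun x hx =>
    ⟨hx.1, (hl x).mpr (by rw [show l x = 1 from hx.1]; exact one_ne_zero)⟩
  obtain ⟨ρ, hρ, -, hgl⟩ := expand_cone φ.open_target h0' hg hn hKc hKv fun x hx => (hKo x hx).2
  obtain ⟨r0, hr0, hr0s⟩ := Metric.isOpen_iff.mp φ.open_target 0 h0'
  have hnorm : ∀ u : E, l u ≠ 0 → ‖u‖ ≤ B * ‖l u‖ → (l u)⁻¹ • u ∈ K := by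
    intro u hu hb
    refine ⟨show l _ = 1 by rw [map_smul, smul_eq_mul, inv_mul_cancel₀ hu], ?_⟩
    rw [mem_closedBall_zero_iff, norm_smul, norm_inv, inv_mul_le_iff₀ (norm_pos_iff.mpr hu)]
    linarith
  have key : ∀ y : E, y ≠ 0 → 2 * ε * ‖y‖ < ρ → (1 + 2 * ε * ‖w‖) * ‖y‖ < r0 →
      ‖l y‖ < ε * ‖y‖ / 2 → ∃ s : ℂ, ‖s‖ < 2 * (ε * ‖y‖) ∧ y + s • w ∈ φ.target ∧
        g (y + s • w) = 0 := by
    intro y hy b1 b2 b3
    have hyp : 0 < ‖y‖ := norm_pos_iff.mpr hy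
    have hσ : 0 < ε * ‖y‖ := by positivity
    have hT : ∀ s ∈ ball (0 : ℂ) (2 * (ε * ‖y‖)), y + s • w ∈ φ.target := by
      intro s hs
      refine hr0s (mem_ball_zero_iff.mpr ((norm_add_le _ _).trans_lt ?_))
      rw [norm_smul]
      have := mul_lt_mul_of_pos_right (mem_ball_zero_iff.mp hs) hwp
      nlinarith
    by_contra hcon
    push Not at hcon
    have c1 : HL (fun s : ℂ => g (y + s • w)) (ball 0 (2 * (ε * ‖y‖))) :=
      HL.of_convex (convex_ball _ _) isOpen_ball (hg.continuousOn.comp (by fun_prop) hT)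
        fun s hs => hcon s (mem_ball_zero_iff.mp hs) (hT s hs)
    have ea : ∀ s : ℂ, l (y + s • w) = l y + s := fun s => by
      rw [map_add, map_smul, hw, smul_eq_mul, mul_one]
    have hlow : ∀ s ∈ sphere (0 : ℂ) (ε * ‖y‖), ε * ‖y‖ / 2 < ‖l y + s‖ := by
      intro s hs
      have h1 := mem_sphere_zero_iff_norm.mp hs
      have h2 : ‖s‖ ≤ ‖l y + s‖ + ‖l y‖ := by simpa using norm_sub_le (l y + s) (l y)
      linarith
    have hne : ∀ s ∈ sphere (0 : ℂ) (ε * ‖y‖), l y + s ≠ 0 := fun s hs =>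
      norm_pos_iff.mp (lt_trans (by positivity) (hlow s hs))
    have c2 := hgl.comp (u := fun s : ℂ => (l y + s, (l y + s)⁻¹ • (y + s • w)))
      (t := sphere 0 (ε * ‖y‖))
      (ContinuousOn.prodMk (by fun_prop)
        ((ContinuousOn.inv₀ (by fun_prop) hne).smul (by fun_prop))) (fun s hs => by
        have h1 := mem_sphere_zero_iff_norm.mp hs
        refine ⟨⟨mem_ball_zero_iff.mpr ((norm_add_le _ _).trans_lt (by linarith)), hne s hs⟩,
          self_subset_thickening hρ K ?_⟩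
        have h2 := hnorm (y + s • w) (by rw [ea]; exact hne s hs) (by
          rw [ea]
          refine (norm_add_le _ _).trans ?_
          rw [norm_smul, h1]
          have h3 : B * (ε * ‖y‖ / 2) ≤ B * ‖l y + s‖ :=
            mul_le_mul_of_nonneg_left (hlow s hs).le (by positivity)
          have h4 : B * (ε * ‖y‖ / 2) = ‖y‖ + ε * ‖y‖ * ‖w‖ := by rw [hB]; field_simp
          linarith)
        rwa [ea] at h2)
    have c3 : HL (fun s : ℂ => (l y + s) / s) (sphere 0 (ε * ‖y‖)) :=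
      HL.of_close (F := fun s => l y + s) (G := fun s => s) (by fun_prop) (by fun_prop)
        fun s hs => by
          rw [mem_sphere_zero_iff_norm.mp hs, add_sub_cancel_right]
          linarith
    have c1' := c1.mono (sphere_subset_ball (by linarith : ε * ‖y‖ < 2 * (ε * ‖y‖)))
    have c4 : HL (fun s : ℂ => s ^ (n : ℤ)) (sphere 0 (ε * ‖y‖)) := by
      refine (c1'.mul (c2.mul (c3.zpow n)).inv).congr' fun s hs => ?_
      have d1 := c1'.ne hs
      have d2 := zpow_ne_zero (n : ℤ) (hne s hs)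
      have d3 : s ^ (n : ℤ) ≠ 0 := zpow_ne_zero _ (ne_of_mem_sphere hs hσ.ne')
      simp only [smul_smul, mul_inv_cancel₀ (hne s hs), one_smul, div_zpow]
      field_simp
    exact hn0 (by exact_mod_cast eq_zero_of_HL_zpow hσ c4)
  refine ⟨l, K, hKc, hKv, hKo, ?_⟩
  have hca : Tendsto (fun z : ℂ => ‖φ (z • v)‖) (𝓝 0) (𝓝 0) := by
    have : ContinuousAt (fun z : ℂ => φ (z • v)) 0 :=
      ContinuousAt.comp (f := fun z : ℂ => z • v) (by rw [zero_smul]; exact φ.continuousAt h0)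
        (by fun_prop)
    simpa [hφ0] using this.norm.tendsto
  have t1 : ∀ᶠ z in 𝓝 (0 : ℂ), 2 * ε * ‖φ (z • v)‖ < ρ :=
    (by simpa using hca.const_mul (2 * ε) : Tendsto (fun z : ℂ => 2 * ε * ‖φ (z • v)‖) (𝓝 0)
      (𝓝 0)).eventually (gt_mem_nhds hρ)
  have t2 : ∀ᶠ z in 𝓝 (0 : ℂ), (1 + 2 * ε * ‖w‖) * ‖φ (z • v)‖ < r0 :=
    (by simpa using hca.const_mul (1 + 2 * ε * ‖w‖) :
      Tendsto (fun z : ℂ => (1 + 2 * ε * ‖w‖) * ‖φ (z • v)‖) (𝓝 0) (𝓝 0)).eventually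
      (gt_mem_nhds hr0)
  have hB2 : 2 / ε ≤ B := div_le_div_of_nonneg_right (by nlinarith [mul_pos hε0 hwp]) hε0.le
  filter_upwards [t1, t2, ball_mem_nhds (0 : ℂ) hρf] with z z1 z2 z3
  by_cases hy : φ (z • v) = 0
  · refine ⟨0, w, ⟨hw, ?_⟩, by rw [hy, zero_smul]⟩
    rw [mem_closedBall_zero_iff, hB, le_div_iff₀ hε0]
    nlinarith [mul_pos hε0 hwp]
  have hzs : z • v ∈ φ.source := hinf z z3 v (mem_ball_self hρf)
  have hz0 : z ≠ 0 := by
    rintro rfl
    exact hy (by rw [zero_smul, hφ0])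
  have hyp : 0 < ‖φ (z • v)‖ := norm_pos_iff.mpr hy
  have hbig : ε * ‖φ (z • v)‖ / 2 ≤ ‖l (φ (z • v))‖ := by
    by_contra hlt
    obtain ⟨s, s1, s2, s3⟩ := key _ hy z1 z2 (not_le.mp hlt)
    have hb := φ.map_target s2
    have hb0 : f (φ.symm (φ (z • v) + s • w)) = 0 := (hV _ hb).mpr (by rwa [φ.right_inv s2])
    have hfar : dist (z • v) 0 ≤ ‖v‖ / ρf * dist (z • v) (φ.symm (φ (z • v) + s • w)) := by
      by_contra hnear
      push Not at hnear
      set b := φ.symm (φ (z • v) + s • w)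
      have hzp : 0 < ‖z‖ := norm_pos_iff.mpr hz0
      have hm' : z⁻¹ • b ∈ ball v ρf := by
        have e : z⁻¹ • b - v = z⁻¹ • (b - z • v) := by
          rw [smul_sub, smul_smul, inv_mul_cancel₀ hz0, one_smul]
        rw [mem_ball, dist_eq_norm, e, norm_smul, norm_inv, inv_mul_lt_iff₀ hzp, ← dist_eq_norm,
          dist_comm]
        rw [dist_zero_right, norm_smul, div_mul_eq_mul_div, div_lt_iff₀ hρf] at hnear
        nlinarith
      refine hfl.ne (x := (z, z⁻¹ • b)) ⟨⟨z3, hz0⟩, hm'⟩ ?_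
      simp only [smul_smul, mul_inv_cancel₀ hz0, one_smul, hb0, zero_div]
    have h1 := hW _ hzs _ hb hfar
    rw [φ.right_inv s2, dist_zero_right, dist_self_add_right, norm_smul] at h1
    have h2 : H * (‖s‖ * ‖w‖) < H * (2 * (ε * ‖φ (z • v)‖) * ‖w‖) := by gcongr
    have h3 : H * (2 * (ε * ‖φ (z • v)‖) * ‖w‖) = ‖φ (z • v)‖ := by rw [hε]; field_simp
    linarith
  have hl1 : l (φ (z • v)) ≠ 0 := norm_pos_iff.mp (lt_of_lt_of_le (by positivity) hbig)
  refine ⟨l (φ (z • v)), _, hnorm _ hl1 ?_, by rw [smul_smul, mul_inv_cancel₀ hl1, one_smul]⟩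
  have h4 : 2 / ε * (ε * ‖φ (z • v)‖ / 2) = ‖φ (z • v)‖ := by field_simp
  calc ‖φ (z • v)‖ = 2 / ε * (ε * ‖φ (z • v)‖ / 2) := h4.symm
    _ ≤ B * ‖l (φ (z • v))‖ := by gcongr

end Vale.Agent.P268
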